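import Mathlib

open Filter Topology Finset

namespace Vale.Agent.P125

/-- Iterated ultrafilter power on increasing tuples followed by one larger number. -/
noncomputable def UF : (m : ℕ) → Ultrafilter ((Fin m → ℕ) × ℕ)
  | 0 => (hyperfilter ℕ).map (fun n => (Fin.elim0, n))
  | m + 1 => (hyperfilter ℕ).bind fun j =>
      (UF m).map (fun z => ((Fin.cons j z.1 : Fin (m + 1) → ℕ), z.2))

theorem eventually_UF_zero (P : (Fin 0 → ℕ) × ℕ → Prop) :
    (∀ᶠ z in (UF 0).toFilter, P z) ↔ ∀ᶠ n in (hyperfilter ℕ : Filter ℕ), P (Fin.elim0, n) :=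
  Iff.rfl

theorem eventually_UF_succ (m : ℕ) (P : (Fin (m + 1) → ℕ) × ℕ → Prop) :
    (∀ᶠ z in (UF (m + 1)).toFilter, P z) ↔ ∀ᶠ j in (hyperfilter ℕ : Filter ℕ),
      ∀ᶠ z in (UF m).toFilter, P ((Fin.cons j z.1 : Fin (m + 1) → ℕ), z.2) :=
  Iff.rfl

theorem eventually_hyper_gt (a : ℕ) : ∀ᶠ n in (hyperfilter ℕ : Filter ℕ), a < n :=
  (eventually_gt_atTop a).filter_mono Nat.hyperfilter_le_atTop

theorem UF_mono_aux : ∀ (m a : ℕ), ∀ᶠ z in (UF m).toFilter,
    StrictMono z.1 ∧ (∀ c, a < z.1 c ∧ z.1 c < z.2) ∧ a < z.2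
  | 0, a => by
      rw [eventually_UF_zero]
      filter_upwards [eventually_hyper_gt a] with n hn
      exact ⟨fun i => i.elim0, fun i => i.elim0, hn⟩
  | m + 1, a => by
      rw [eventually_UF_succ]
      filter_upwards [eventually_hyper_gt a] with j hj
      filter_upwards [UF_mono_aux m j] with z hz
      obtain ⟨h1, h2, h3⟩ := hz
      refine ⟨?_, ?_, hj.trans h3⟩
      · intro i i' hi
        rcases Fin.eq_zero_or_eq_succ i' with rfl | ⟨i', rfl⟩
        · exact absurd hi (Fin.not_lt_zero i)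
        rcases Fin.eq_zero_or_eq_succ i with rfl | ⟨i, rfl⟩
        · simpa using (h2 i').1
        · simpa using h1 (Fin.succ_lt_succ_iff.1 hi)
      · intro c
        rcases Fin.eq_zero_or_eq_succ c with rfl | ⟨c, rfl⟩
        · simpa using ⟨hj, h3⟩
        · simpa using ⟨hj.trans (h2 c).1, (h2 c).2⟩

theorem UF_mono (m : ℕ) : ∀ᶠ z in (UF m).toFilter, StrictMono z.1 ∧ ∀ c, z.1 c < z.2 := by
  filter_upwards [UF_mono_aux m 0] with z hz using ⟨hz.1, fun c => (hz.2.1 c).2⟩

theorem UF_spread_aux : ∀ (m k : ℕ) (φ : Fin k → Fin m), StrictMono φ →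
    ∀ P : (Fin k → ℕ) × ℕ → Prop,
      (∀ᶠ z in (UF m).toFilter, P (z.1 ∘ φ, z.2)) ↔ ∀ᶠ z in (UF k).toFilter, P z
  | 0, k, φ, _, P => by
      cases k with
      | zero =>
        refine eventually_congr (Eventually.of_forall fun z => ?_)
        rw [show z.1 ∘ φ = z.1 from Subsingleton.elim _ _]
      | succ k => exact (φ 0).elim0
  | m + 1, k, φ, hφ, P => by
      rw [eventually_UF_succ]
      by_cases h : ∃ i, φ i = 0
      · obtain ⟨i, hi⟩ := h
        cases k with
        | zero => exact i.elim0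
        | succ k =>
          have h0 : φ 0 = 0 := by
            have := hφ.monotone (Fin.zero_le i)
            rw [hi] at this
            exact le_antisymm this (Fin.zero_le _)
          have h1 : ∀ c : Fin k, φ c.succ ≠ 0 := by
            intro c hc
            have := hφ (Fin.succ_pos c)
            rw [h0, hc] at this
            exact lt_irrefl _ this
          let φ' : Fin k → Fin m := fun c => (φ c.succ).pred (h1 c)
          have hφ' : StrictMono φ' := fun a b hab =>
            Fin.pred_lt_pred_iff.2 (hφ (Fin.succ_lt_succ_iff.2 hab))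
          have he : ∀ (j : ℕ) (J : Fin m → ℕ), (Fin.cons j J : Fin (m + 1) → ℕ) ∘ φ =
              (Fin.cons j (J ∘ φ') : Fin (k + 1) → ℕ) := by
            intro j J
            funext c
            rcases Fin.eq_zero_or_eq_succ c with rfl | ⟨c, rfl⟩
            · simp [h0]
            · have : φ c.succ = (φ' c).succ := by simp [φ']
              simp [this]
          rw [eventually_UF_succ]
          refine eventually_congr (Eventually.of_forall fun j => ?_)
          simp only [he]
          exact UF_spread_aux m k φ' hφ' (fun z => P ((Fin.cons j z.1 : Fin (k + 1) → ℕ), z.2))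
      · push Not at h
        let φ' : Fin k → Fin m := fun c => (φ c).pred (h c)
        have hφ' : StrictMono φ' := fun a b hab => Fin.pred_lt_pred_iff.2 (hφ hab)
        have he : ∀ (j : ℕ) (J : Fin m → ℕ), (Fin.cons j J : Fin (m + 1) → ℕ) ∘ φ = J ∘ φ' := by
          intro j J
          funext c
          have : φ c = (φ' c).succ := by simp [φ']
          simp [this]
        simp only [he]
        rw [UF_spread_aux m k φ' hφ' P]
        exact eventually_const

theorem UF_spread {m k : ℕ} {φ : Fin k → Fin m} (hφ : StrictMono φ) :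
    Tendsto (fun z : (Fin m → ℕ) × ℕ => (z.1 ∘ φ, z.2)) (UF m) (UF k) :=
  fun s hs => (UF_spread_aux m k φ hφ (fun z => z ∈ s)).2 hs

theorem exists_ultralim {I : Type*} (F : Ultrafilter I) (f : I → ℝ) (M : ℝ)
    (h : ∀ᶠ i in (F : Filter I), |f i| ≤ M) : ∃ l, Tendsto f F (𝓝 l) := by
  obtain ⟨x, _, hx⟩ := (isCompact_Icc (a := -M) (b := M)).ultrafilter_le_nhds' (F.map f)
    (show ∀ᶠ i in (F : Filter I), f i ∈ Set.Icc (-M) M by
      filter_upwards [h] with i hi using abs_le.1 hi)
  exact ⟨x, hx⟩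

/-- Approximately spreadable finitely supported laws on increasing tuples. -/
theorem exists_spreadable (n k : ℕ) (R : Type) [Fintype R] (φ : R → Fin k → Fin n)
    (hφ : ∀ r, StrictMono (φ r)) (r₀ : R) (ε : ℝ) (hε : 0 < ε) :
    ∃ (S : Type) (_ : Fintype S) (ν : S → ℝ) (X : S → Fin n → ℕ), (∀ x, 0 ≤ ν x) ∧
      ∑ x, ν x = 1 ∧ (∀ x, StrictMono (X x)) ∧ ∀ (r : R) (T : Finset (Fin k → ℕ)),
        ∑ y ∈ T, |(∑ x, if X x ∘ φ r = y then ν x else 0) -
          (∑ x, if X x ∘ φ r₀ = y then ν x else 0)| ≤ ε := by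
  classical
  let E := R → lp (fun _ : Fin k → ℕ => ℝ) 1
  let δ : (Fin k → ℕ) → lp (fun _ : Fin k → ℕ => ℝ) 1 := fun y => lp.single 1 y (1 : ℝ)
  have hδ : ∀ y, ‖δ y‖ = 1 := fun y => by
    simp only [δ]
    rw [lp.norm_single (by norm_num)]
    simp
  let z : (Fin n → ℕ) → E := fun x r => δ (x ∘ φ r) - δ (x ∘ φ r₀)
  let K : Set E := convexHull ℝ (z '' {x | StrictMono x})
  have hK : ¬ Disjoint (Metric.ball (0 : E) ε) K := by
    intro hdis
    obtain ⟨f, u, hf1, hf2⟩ := geometric_hahn_banach_open (convex_ball (0 : E) ε)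
      Metric.isOpen_ball (convex_convexHull ℝ _) hdis
    have hu : 0 < u := by simpa using hf1 0 (Metric.mem_ball_self hε)
    let F : R → (Fin k → ℕ) → ℝ := fun r y => f (Pi.single r (δ y))
    have hF : ∀ r y, |F r y| ≤ ‖f‖ := by
      intro r y
      have := f.le_opNorm (Pi.single r (δ y))
      rw [Pi.norm_single, hδ, mul_one] at this
      exact this
    have hz : ∀ x, f (z x) = ∑ r, (F r (x ∘ φ r) - F r (x ∘ φ r₀)) := by
      intro x
      have : z x = ∑ r, (Pi.single r (δ (x ∘ φ r)) - Pi.single r (δ (x ∘ φ r₀))) := by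
        funext r
        rw [Finset.sum_apply, Finset.sum_eq_single r]
        · rw [Pi.sub_apply, Pi.single_eq_same, Pi.single_eq_same]
        · intro b _ hb
          rw [Pi.sub_apply, Pi.single_eq_of_ne (Ne.symm hb), Pi.single_eq_of_ne (Ne.symm hb),
            sub_self]
        · simp
      rw [this, map_sum]
      simp only [map_sub, F]
    have hlim : ∀ r, ∃ l, Tendsto (fun w : (Fin k → ℕ) × ℕ => F r w.1) (UF k) (𝓝 l) :=
      fun r => exists_ultralim (UF k) _ ‖f‖ (Eventually.of_forall fun w => hF r w.1)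
    choose l hl using hlim
    have h1 : Tendsto (fun w : (Fin n → ℕ) × ℕ => f (z w.1)) (UF n) (𝓝 (∑ r, (l r - l r))) := by
      simp only [hz]
      refine tendsto_finsetSum _ fun r _ => Tendsto.sub ?_ ?_
      · have := (hl r).comp (UF_spread (hφ r))
        exact this
      · have := (hl r).comp (UF_spread (hφ r₀))
        exact this
    have h2 : u ≤ ∑ r, (l r - l r) := by
      refine ge_of_tendsto h1 ?_
      filter_upwards [UF_mono n] with w hw
      exact hf2 _ (subset_convexHull ℝ _ ⟨w.1, hw.1, rfl⟩)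
    simp at h2
    linarith
  rw [Set.not_disjoint_iff] at hK
  obtain ⟨e, he1, he2⟩ := hK
  obtain ⟨ι, _, w, z', hw0, hw1, hz', he⟩ := mem_convexHull_iff_exists_fintype.1 he2
  choose X hX hXz using hz'
  refine ⟨ι, inferInstance, w, X, hw0, hw1, hX, fun r T => ?_⟩
  have h1 : ‖e r‖ ≤ ε := (norm_le_pi_norm e r).trans (mem_ball_zero_iff.1 he1).le
  have h2 := lp.sum_rpow_le_norm_rpow (p := 1) (by simp) (e r) T
  simp only [ENNReal.toReal_one, Real.rpow_one, Real.norm_eq_abs] at h2
  refine le_trans (le_of_eq (Finset.sum_congr rfl fun y _ => ?_)) (h2.trans h1)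
  congr 1
  rw [← he]
  have : (∑ i, w i • z' i) r = ∑ i, w i • (δ (X i ∘ φ r) - δ (X i ∘ φ r₀)) := by
    rw [Finset.sum_apply]
    refine Finset.sum_congr rfl fun i _ => ?_
    rw [← hXz i]
    rfl
  rw [this, lp.coeFn_sum, Finset.sum_apply, ← Finset.sum_sub_distrib]
  refine Finset.sum_congr rfl fun i _ => ?_
  rw [lp.coeFn_smul, lp.coeFn_sub]
  simp only [δ, Pi.smul_apply, Pi.sub_apply, lp.single_apply, Pi.single_apply, smul_eq_mul,
    eq_comm (a := y)]
  split_ifs <;> simp

end Vale.Agent.P125
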