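import Vale.Agent.P125.Comb
import Vale.Agent.P125.Ultra

open Filter Topology Finset

namespace Vale.Agent.P125

/-- The kept sub-tuple for a type and a position. -/
def view (d s : ℕ) (r : Bool × Fin d) (q : Fin (2 * s + 1)) : Fin ((s + 1) * d + 1) :=
  ⟨idx d r.2 (q + r.1.toNat), idx_lt r.2.2 (by
    have := q.2
    have : r.1.toNat ≤ 1 := Bool.toNat_le _
    omega)⟩

theorem view_strictMono {d : ℕ} (hd : 2 ≤ d) (s : ℕ) (r : Bool × Fin d) :
    StrictMono (view d s r) := by
  intro a b hab
  simp only [view, Fin.mk_lt_mk]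
  exact idx_strictMono hd _ (by have := Fin.lt_def.1 hab; omega)

/-- Extension of a tuple by zero. -/
def extd {n : ℕ} (x : Fin n → ℕ) (a : ℕ) : ℕ := if h : a < n then x ⟨a, h⟩ else 0

theorem extd_lt {n : ℕ} {x : Fin n → ℕ} (hx : StrictMono x) (a b : ℕ) (hab : a < b) (hb : b < n) :
    extd x a < extd x b := by
  simp only [extd, dif_pos hb, dif_pos (hab.trans hb)]
  exact hx (Fin.mk_lt_mk.2 hab)

theorem extd_le {n : ℕ} {x : Fin n → ℕ} (hx : StrictMono x) (a b : ℕ) (hab : a ≤ b) (hb : b < n) :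
    extd x a ≤ extd x b := by
  rcases hab.eq_or_lt with rfl | h
  · exact le_rfl
  · exact (extd_lt hx a b h hb).le

theorem extd_view {d s : ℕ} (x : Fin ((s + 1) * d + 1) → ℕ) (r : Bool × Fin d) (q : ℕ)
    (hq : q < 2 * s + 1) : extd x (idx d r.2 (q + r.1.toNat)) = (x ∘ view d s r) ⟨q, hq⟩ := by
  have h := (view d s r ⟨q, hq⟩).2
  simp only [view] at h
  simp only [extd, dif_pos h, Function.comp, view]

/-- Involution on labels. -/
def flipL {d : ℕ} : Option (Bool × Fin d × Fin d) → Option (Bool × Fin d × Fin d)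
  | none => none
  | some (τ, i, j) => some (!τ, j, i)

theorem exists_chain (d s t : ℕ) (hd : 2 ≤ d) (hdt : 4 * t ≤ d) :
    ∃ (S L : Type) (_ : Fintype S) (_ : Fintype L) (C : LChain S L) (g : S → L → S → ℕ → ℝ)
      (N : ℕ), (∀ x l y, g y (C.σ l) x = - g x l y) ∧
      (∀ x l y, g x l y = 0 ∨ ∃ κ : ℕ → ℕ, Monotone κ ∧ (∀ u, κ u ≤ 2 * s + 3) ∧
        g x l y = fun u => (-1) ^ κ u) ∧
      ∀ (ρ : (ℕ → ℝ) → ℝ) (lam : ℝ), (∀ v, 0 ≤ ρ v) → 0 ≤ lam →
        (∀ (v : ℕ → ℝ) (u : ℕ → ℕ), (∀ r r', r < r' → r' + 4 * t < 2 * s → u r < u r') →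
          (∀ r, r + 4 * t < 2 * s → u r < N ∧ v (u r) = (-1) ^ (r + 1) * t) → lam ≤ ρ v) →
        lam / 2 ≤ ∑ x, C.π x * W C g ρ t x 0 := by
  classical
  have hd0 : (0 : ℝ) < d := by exact_mod_cast (show 0 < d by omega)
  let r₀ : Bool × Fin d := (false, ⟨0, by omega⟩)
  obtain ⟨S, _, ν, X, hν0, hν1, hX, hsp⟩ := exists_spreadable ((s + 1) * d + 1) (2 * s + 1)
    (Bool × Fin d) (view d s) (view_strictMono hd s) r₀ (1 / (8 * d * (t + 1))) (by positivity)
  let μr : Bool × Fin d → (Fin (2 * s + 1) → ℕ) → ℝ :=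
    fun r y => ∑ x, if X x ∘ view d s r = y then ν x else 0
  have hμr0 : ∀ r y, 0 ≤ μr r y := fun r y => Finset.sum_nonneg fun x _ => by
    split_ifs
    · exact hν0 x
    · exact le_rfl
  let μ : (Fin (2 * s + 1) → ℕ) → ℝ := fun y =>
    Finset.univ.inf' ⟨r₀, Finset.mem_univ _⟩ (fun r => μr r y)
  have hμ0 : ∀ y, 0 ≤ μ y := fun y => (Finset.le_inf'_iff _ _).2 fun r _ => hμr0 r y
  have hμle : ∀ r y, μ y ≤ μr r y := fun r y => Finset.inf'_le _ (Finset.mem_univ r)
  let T : Finset (Fin (2 * s + 1) → ℕ) :=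
    Finset.univ.image (fun z : S × (Bool × Fin d) => X z.1 ∘ view d s z.2)
  have hT : ∀ x r, X x ∘ view d s r ∈ T := fun x r =>
    Finset.mem_image.2 ⟨(x, r), Finset.mem_univ _, rfl⟩
  have hfib : ∀ r (G : (Fin (2 * s + 1) → ℕ) → ℝ),
      ∑ x, ν x * G (X x ∘ view d s r) = ∑ y ∈ T, μr r y * G y := by
    intro r G
    simp only [μr, Finset.sum_mul]
    rw [Finset.sum_comm]
    refine Finset.sum_congr rfl fun x _ => ?_
    simp [ite_mul, hT]
  have hμT : 1 - 1 / (4 * (t + 1)) ≤ ∑ y ∈ T, μ y := by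
    have h1 : ∑ y ∈ T, μr r₀ y = 1 := by
      have := hfib r₀ (fun _ => 1)
      simp only [mul_one] at this
      rw [← this, hν1]
    have h2 : ∀ y, μr r₀ y - ∑ r, |μr r y - μr r₀ y| ≤ μ y := by
      intro y
      refine (Finset.le_inf'_iff _ _).2 fun r _ => ?_
      have := Finset.single_le_sum (f := fun r => |μr r y - μr r₀ y|)
        (fun r _ => abs_nonneg _) (Finset.mem_univ r)
      have := neg_abs_le (μr r y - μr r₀ y)
      linarith
    have h3 : ∑ r, ∑ y ∈ T, |μr r y - μr r₀ y| ≤ ∑ _r : Bool × Fin d, 1 / (8 * (d : ℝ) * (t + 1)) :=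
      Finset.sum_le_sum fun r _ => hsp r T
    have h4 := Finset.sum_le_sum (s := T) fun y _ => h2 y
    rw [Finset.sum_sub_distrib, h1, Finset.sum_comm] at h4
    have h5 : ∑ _r : Bool × Fin d, 1 / (8 * (d : ℝ) * (t + 1)) = 1 / (4 * (t + 1)) := by
      simp only [Finset.sum_const, Finset.card_univ, Fintype.card_prod, Fintype.card_bool,
        Fintype.card_fin, nsmul_eq_mul]
      push_cast
      field_simp
      ring
    linarith
  let q : S → Bool × Fin d × Fin d → S → ℝ := fun x e x' =>
    if X x ∘ view d s (e.1, e.2.1) = X x' ∘ view d s (!e.1, e.2.2) then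
      1 / (2 * (d : ℝ) ^ 2) * (μ (X x ∘ view d s (e.1, e.2.1)) /
        μr (e.1, e.2.1) (X x ∘ view d s (e.1, e.2.1))) *
        (ν x' / μr (!e.1, e.2.2) (X x ∘ view d s (e.1, e.2.1))) else 0
  have hq0 : ∀ x e x', 0 ≤ q x e x' := by
    intro x e x'
    simp only [q]
    split_ifs
    · exact mul_nonneg (mul_nonneg (by positivity) (div_nonneg (hμ0 _) (hμr0 _ _)))
        (div_nonneg (hν0 _) (hμr0 _ _))
    · exact le_rfl
  have hqsum : ∀ x e, ∑ x', q x e x' = 1 / (2 * (d : ℝ) ^ 2) *
      (μ (X x ∘ view d s (e.1, e.2.1)) / μr (e.1, e.2.1) (X x ∘ view d s (e.1, e.2.1))) := by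
    intro x e
    set y := X x ∘ view d s (e.1, e.2.1) with hy
    have h1 : ∑ x', q x e x' = 1 / (2 * (d : ℝ) ^ 2) * (μ y / μr (e.1, e.2.1) y) *
        (μr (!e.1, e.2.2) y / μr (!e.1, e.2.2) y) := by
      conv_rhs => rw [show μr (!e.1, e.2.2) y / μr (!e.1, e.2.2) y =
        (∑ x', if X x' ∘ view d s (!e.1, e.2.2) = y then ν x' else 0) / μr (!e.1, e.2.2) y
        from rfl]
      rw [Finset.sum_div, Finset.mul_sum]
      refine Finset.sum_congr rfl fun x' _ => ?_
      simp only [q, ← hy, eq_comm (a := y)]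
      split_ifs <;> simp
    rw [h1]
    by_cases h : μr (!e.1, e.2.2) y = 0
    · have : μ y = 0 := le_antisymm (h ▸ hμle _ y) (hμ0 y)
      simp [this]
    · rw [div_self h, mul_one]
  have hqle : ∀ x e, ∑ x', q x e x' ≤ 1 / (2 * (d : ℝ) ^ 2) := by
    intro x e
    rw [hqsum]
    exact mul_le_of_le_one_right (by positivity) (div_le_one_of_le₀ (hμle _ _) (hμr0 _ _))
  let hold : S → ℝ := fun x => 1 - ∑ e, ∑ x', q x e x'
  have hhold0 : ∀ x, 0 ≤ hold x := by
    intro x
    have := Finset.sum_le_sum (s := Finset.univ) fun e _ => hqle x e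
    simp only [Finset.sum_const, Finset.card_univ, Fintype.card_prod, Fintype.card_bool,
        Fintype.card_fin, nsmul_eq_mul] at this
    have e : ((2 * (d * d) : ℕ) : ℝ) * (1 / (2 * (d : ℝ) ^ 2)) = 1 := by
      push_cast; field_simp
    simp only [hold]
    linarith
  have hholdsum : ∑ x, ν x * hold x ≤ 1 / (4 * (t + 1)) := by
    have h1 : ∀ e : Bool × Fin d × Fin d, ∑ x, ν x * ∑ x', q x e x' =
        1 / (2 * (d : ℝ) ^ 2) * ∑ y ∈ T, μ y := by
      intro e
      simp only [hqsum]
      rw [hfib (e.1, e.2.1) (fun y => 1 / (2 * (d : ℝ) ^ 2) * (μ y / μr (e.1, e.2.1) y)),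
        Finset.mul_sum]
      refine Finset.sum_congr rfl fun y _ => ?_
      by_cases h : μr (e.1, e.2.1) y = 0
      · have : μ y = 0 := le_antisymm (h ▸ hμle _ y) (hμ0 y)
        simp [this]
      · field_simp
    have h2 : ∑ x, ν x * hold x = 1 - ∑ e : Bool × Fin d × Fin d, ∑ x, ν x * ∑ x', q x e x' := by
      simp only [hold, mul_sub, mul_one, Finset.sum_sub_distrib, hν1]
      rw [Finset.sum_comm]
      simp only [Finset.mul_sum (s := Finset.univ (α := Bool × Fin d × Fin d))]
    rw [h2]
    simp only [h1, Finset.sum_const, Finset.card_univ, Fintype.card_prod, Fintype.card_bool,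
        Fintype.card_fin, nsmul_eq_mul]
    have e : ((2 * (d * d) : ℕ) : ℝ) * (1 / (2 * (d : ℝ) ^ 2) * ∑ y ∈ T, μ y) = ∑ y ∈ T, μ y := by
      push_cast; field_simp
    linarith
  let p : S → Option (Bool × Fin d × Fin d) → S → ℝ := fun x l x' =>
    match l with
    | none => if x' = x then hold x else 0
    | some e => q x e x'
  let C : LChain S (Option (Bool × Fin d × Fin d)) :=
    { π := ν
      p := p
      σ := flipL
      σσ := by
        rintro (_ | ⟨τ, i, j⟩) <;> simp [flipL]
      π_nonneg := hν0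
      π_sum := hν1
      p_nonneg := by
        rintro x (_ | e) x'
        · simp only [p]
          split_ifs
          · exact hhold0 x
          · exact le_rfl
        · exact hq0 x e x'
      p_sum := by
        intro x
        rw [Fintype.sum_option]
        simp [p, hold]
      rev := by
        rintro x (_ | ⟨τ, i, j⟩) x'
        · simp only [p, flipL]
          by_cases h : x' = x
          · subst h; rfl
          · rw [if_neg h, if_neg (Ne.symm h)]; simp
        · simp only [p, flipL, q, Bool.not_not]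
          by_cases h : X x ∘ view d s (τ, i) = X x' ∘ view d s (!τ, j)
          · rw [if_pos h, if_pos h.symm, ← h]; ring
          · rw [if_neg h, if_neg (Ne.symm h)]; simp }
  let g : S → Option (Bool × Fin d × Fin d) → S → ℕ → ℝ := fun x l x' =>
    match l with
    | none => 0
    | some e => if X x ∘ view d s (e.1, e.2.1) = X x' ∘ view d s (!e.1, e.2.2) then
        fun u => (-1) ^ (cnt (X x ∘ view d s (e.1, e.2.1)) u + e.1.toNat + 1) else 0
  let N : ℕ := Finset.univ.sup (fun z : S × Fin ((s + 1) * d + 1) => X z.1 z.2)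
  have hN : ∀ x a, extd (X x) a ≤ N := by
    intro x a
    unfold extd
    split_ifs with h
    · exact Finset.le_sup (f := fun z : S × Fin ((s + 1) * d + 1) => X z.1 z.2)
        (Finset.mem_univ (x, ⟨a, h⟩))
    · exact Nat.zero_le _
  refine ⟨S, Option (Bool × Fin d × Fin d), inferInstance, inferInstance, C, g, N, ?_, ?_, ?_⟩
  · rintro x (_ | ⟨τ, i, j⟩) x'
    · simp [C, g, flipL]
    · simp only [C, g, flipL, Bool.not_not]
      by_cases h : X x ∘ view d s (τ, i) = X x' ∘ view d s (!τ, j)
      · rw [if_pos h, if_pos h.symm, ← h]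
        funext u
        cases τ <;> simp [pow_succ]
      · rw [if_neg h, if_neg (Ne.symm h)]; simp
  · rintro x (_ | ⟨τ, i, j⟩) x'
    · exact Or.inl rfl
    · simp only [g]
      split_ifs with h
      · refine Or.inr ⟨fun u => cnt (X x ∘ view d s (τ, i)) u + τ.toNat + 1, ?_, ?_, rfl⟩
        · intro u u' hu
          have := cnt_mono (X x ∘ view d s (τ, i)) hu
          simp only
          omega
        · intro u
          have := cnt_le (X x ∘ view d s (τ, i)) u
          have : τ.toNat ≤ 1 := Bool.toNat_le _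
          simp only
          omega
      · exact Or.inl rfl
  · intro ρ lam hρ hlam hend
    let bad : Fin d → Option (Bool × Fin d × Fin d) → Bool := fun j l =>
      match l with
      | none => true
      | some e => decide (e.2.1 = j)
    have key := W_lower C g ρ hρ lam hlam t
      (fun m x (j : Fin d) v => Inv d s m (extd (X x)) j v) bad (fun x => hold x + 1 / d)
      (fun x => add_nonneg (hhold0 x) (by positivity)) ?_ ?_ ?_ ?_
    · refine le_trans ?_ key
      have h1 : ∑ x, C.π x * (hold x + 1 / d) = ∑ x, ν x * hold x + 1 / d := by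
        simp only [C, mul_add, Finset.sum_add_distrib, ← Finset.sum_mul, hν1, one_mul]
      rw [h1]
      have ht0 : (0 : ℝ) ≤ t := Nat.cast_nonneg t
      have h2 : (t : ℝ) * (1 / d) ≤ 1 / 4 := by
        have : (4 * t : ℝ) ≤ d := by exact_mod_cast hdt
        rw [mul_one_div, div_le_iff₀ hd0]; linarith
      have h3 : (t : ℝ) * (1 / (4 * (t + 1))) ≤ 1 / 4 := by
        rw [mul_one_div, div_le_iff₀ (by positivity)]; linarith
      have h4 := mul_le_mul_of_nonneg_left hholdsum ht0
      have h5 : (1 / 2 : ℝ) ≤ 1 - t * (∑ x, ν x * hold x + 1 / d) := by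
        rw [mul_add]; linarith
      have := mul_le_mul_of_nonneg_left h5 hlam
      linarith
    · intro x j
      rw [Fintype.sum_option]
      have h1 : ∑ y, (if bad j none then C.p x none y else 0) = hold x := by
        simp [bad, C, p]
      rw [h1]
      refine add_le_add le_rfl ?_
      have h2 : ∀ e : Bool × Fin d × Fin d, ∑ y, (if bad j (some e) then C.p x (some e) y else 0) ≤
          if e.2.1 = j then 1 / (2 * (d : ℝ) ^ 2) else 0 := by
        intro e
        simp only [bad, decide_eq_true_eq]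
        split_ifs
        · exact hqle x e
        · simp
      refine (Finset.sum_le_sum fun e _ => h2 e).trans (le_of_eq ?_)
      have h3 : ∀ τ : Bool, ∑ e : Fin d × Fin d,
          (if e.1 = j then 1 / (2 * (d : ℝ) ^ 2) else 0) = d * (1 / (2 * (d : ℝ) ^ 2)) := by
        intro _
        rw [Fintype.sum_prod_type, Finset.sum_comm]
        have h4 : ∀ b : Fin d, ∑ a : Fin d, (if (a, b).1 = j then 1 / (2 * (d : ℝ) ^ 2) else 0) =
            1 / (2 * (d : ℝ) ^ 2) := fun b => by
          rw [Finset.sum_eq_single j, if_pos rfl]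
          · intro a _ ha
            exact if_neg ha
          · simp
        rw [Finset.sum_congr rfl fun b _ => h4 b]
        simp
      rw [Fintype.sum_prod_type, Fintype.sum_bool, h3 true]
      field_simp
      norm_num
    · rintro m x j v (_ | ⟨τ, i, j'⟩) x' hm hI hb hp
      · exact absurd rfl hb
      have hc : X x ∘ view d s (τ, i) = X x' ∘ view d s (!τ, j') := by
        by_contra h
        exact hp (by simp only [C, p, q]; rw [if_neg h])
      refine ⟨j', Inv.step (z := extd (X x)) (i := i) (j := j) (τ := τ.toNat) (τ' := (!τ).toNat)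
        (extd_le (hX x)) i.2 j.2 (fun h => hb (decide_eq_true (Fin.ext h))) (by cases τ <;> rfl) ?_ ?_ hI⟩
      · intro q' hq'
        rw [extd_view (X x) (τ, i) q' (by omega), extd_view (X x') (!τ, j') q' (by omega), hc]
      · intro q' hq' u hu1 hu2
        rw [extd_view (X x) (τ, i) q' (by omega)] at hu1
        rw [extd_view (X x) (τ, i) (q' + 1) (by omega)] at hu2
        have := cnt_eq ((hX x).comp (view_strictMono hd s (τ, i))).monotone (by omega) hu1 hu2
        simp only [g]
        rw [if_pos hc, this]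
    · intro x j v hI
      obtain ⟨u, h1, h2⟩ := Inv.final hd j.2 (extd_lt (hX x)) (hN x) hI
      exact hend v u h1 h2
    · intro x
      exact ⟨⟨0, by omega⟩, Inv.zero hd (by simp; omega) (extd_lt (hX x))⟩

end Vale.Agent.P125
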