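import Vale.Agent.P125.Defs

open Filter Topology Finset

namespace Vale.Agent.P125

/-- A reversible chain with labelled transitions. -/
structure LChain (S L : Type) [Fintype S] [Fintype L] where
  π : S → ℝ
  p : S → L → S → ℝ
  σ : L → L
  σσ : ∀ l, σ (σ l) = l
  π_nonneg : ∀ x, 0 ≤ π x
  π_sum : ∑ x, π x = 1
  p_nonneg : ∀ x l y, 0 ≤ p x l y
  p_sum : ∀ x, ∑ l, ∑ y, p x l y = 1
  rev : ∀ x l y, π x * p x l y = π y * p y (σ l) x

section
variable {S L : Type} [Fintype S] [Fintype L] {V : Type*} [AddCommGroup V]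

/-- Expected cost of `v` plus the sum of the labels along `t` steps from `x`. -/
def W (C : LChain S L) (g : S → L → S → V) (ρ : V → ℝ) : ℕ → S → V → ℝ
  | 0, _, v => ρ v
  | t + 1, x, v => ∑ l, ∑ y, C.p x l y * W C g ρ t y (v + g x l y)

/-- The cocycle form of the Markov type inequality for a cost `ρ`. -/
def Cocycle (A : ℝ) (ρ : V → ℝ) : Prop :=
  ∀ (S L : Type) [Fintype S] [Fintype L] (C : LChain S L) (g : S → L → S → V),
    (∀ x l y, g y (C.σ l) x = - g x l y) → ∀ t : ℕ, 1 ≤ t →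
    ∑ x, C.π x * W C g ρ t x 0 ≤ A * t * ∑ x, ∑ l, ∑ y, C.π x * C.p x l y * ρ (g x l y)

theorem W_nonneg (C : LChain S L) (g : S → L → S → V) (ρ : V → ℝ) (hρ : ∀ v, 0 ≤ ρ v) :
    ∀ t x v, 0 ≤ W C g ρ t x v
  | 0, _, v => hρ v
  | t + 1, x, _ => Finset.sum_nonneg fun l _ => Finset.sum_nonneg fun y _ =>
      mul_nonneg (C.p_nonneg x l y) (W_nonneg C g ρ hρ t y _)

theorem LChain.sum_σ (C : LChain S L) (F : L → ℝ) : ∑ l, F (C.σ l) = ∑ l, F l :=
  Equiv.sum_comp (Function.Involutive.toPerm C.σ C.σσ) F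

/-- Symmetry of the edge measure. -/
theorem LChain.sum_symm (C : LChain S L) (F : S → L → S → ℝ) :
    ∑ x, ∑ l, ∑ y, C.π x * C.p x l y * F y (C.σ l) x =
      ∑ x, ∑ l, ∑ y, C.π x * C.p x l y * F x l y := by
  calc ∑ x, ∑ l, ∑ y, C.π x * C.p x l y * F y (C.σ l) x
      = ∑ x, ∑ l, ∑ y, C.π y * C.p y (C.σ l) x * F y (C.σ l) x := by
        refine Finset.sum_congr rfl fun x _ => Finset.sum_congr rfl fun l _ =>
          Finset.sum_congr rfl fun y _ => by rw [C.rev x l y]
    _ = ∑ x, ∑ y, ∑ l, C.π y * C.p y (C.σ l) x * F y (C.σ l) x := by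
        refine Finset.sum_congr rfl fun x _ => Finset.sum_comm
    _ = ∑ x, ∑ y, ∑ l, C.π y * C.p y l x * F y l x := by
        refine Finset.sum_congr rfl fun x _ => Finset.sum_congr rfl fun y _ => ?_
        exact C.sum_σ (fun l => C.π y * C.p y l x * F y l x)
    _ = ∑ y, ∑ x, ∑ l, C.π y * C.p y l x * F y l x := Finset.sum_comm
    _ = _ := by
        refine Finset.sum_congr rfl fun x _ => Finset.sum_comm

theorem LChain.sum_const (C : LChain S L) (c : ℝ) :
    ∑ x, ∑ l, ∑ y, C.π x * C.p x l y * c = c := by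
  have : ∀ x, ∑ l, ∑ y, C.π x * C.p x l y * c = C.π x * c := by
    intro x
    have h := C.p_sum x
    calc ∑ l, ∑ y, C.π x * C.p x l y * c = C.π x * c * ∑ l, ∑ y, C.p x l y := by
          simp_rw [Finset.mul_sum]
          refine Finset.sum_congr rfl fun l _ => Finset.sum_congr rfl fun y _ => by ring
      _ = _ := by rw [h, mul_one]
  simp_rw [this]
  rw [← Finset.sum_mul, C.π_sum, one_mul]

theorem W_comp {V' : Type*} [AddCommGroup V'] (T : V →+ V') (C : LChain S L) (g : S → L → S → V)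
    (ρ : V' → ℝ) : ∀ t x v, W C g (fun v => ρ (T v)) t x v =
      W C (fun x l y => T (g x l y)) ρ t x (T v)
  | 0, _, _ => rfl
  | t + 1, x, v => by
      simp only [W, W_comp T C g ρ t, map_add]

theorem Cocycle.comp {V' : Type*} [AddCommGroup V'] {A : ℝ} {ρ : V' → ℝ} (h : Cocycle A ρ)
    (T : V →+ V') : Cocycle A (fun v => ρ (T v)) := by
  intro S L _ _ C g hg t ht
  have := h S L C (fun x l y => T (g x l y)) (fun x l y => by rw [hg, map_neg]) t ht
  simpa only [W_comp, map_zero] using this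

theorem W_sum {Ω : Type*} [Fintype Ω] (w : Ω → ℝ) (C : LChain S L) (g : S → L → S → V)
    (ρ : Ω → V → ℝ) : ∀ t x v, W C g (fun v => ∑ ω, w ω * ρ ω v) t x v =
      ∑ ω, w ω * W C g (ρ ω) t x v
  | 0, _, _ => rfl
  | t + 1, x, v => by
      simp only [W, W_sum w C g ρ t, Finset.mul_sum]
      calc ∑ l, ∑ y, ∑ ω, C.p x l y * (w ω * W C g (ρ ω) t y (v + g x l y))
          = ∑ l, ∑ ω, ∑ y, C.p x l y * (w ω * W C g (ρ ω) t y (v + g x l y)) :=
            Finset.sum_congr rfl fun l _ => Finset.sum_comm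
        _ = ∑ ω, ∑ l, ∑ y, C.p x l y * (w ω * W C g (ρ ω) t y (v + g x l y)) := Finset.sum_comm
        _ = _ := by
            refine Finset.sum_congr rfl fun ω _ => Finset.sum_congr rfl fun l _ =>
              Finset.sum_congr rfl fun y _ => by ring

theorem Cocycle.sum {Ω : Type*} [Fintype Ω] {A : ℝ} (w : Ω → ℝ) (hw : ∀ ω, 0 ≤ w ω)
    {ρ : Ω → V → ℝ} (h : ∀ ω, Cocycle A (ρ ω)) : Cocycle A (fun v => ∑ ω, w ω * ρ ω v) := by
  intro S L _ _ C g hg t ht
  simp only [W_sum]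
  calc ∑ x, C.π x * ∑ ω, w ω * W C g (ρ ω) t x 0
      = ∑ ω, w ω * ∑ x, C.π x * W C g (ρ ω) t x 0 := by
        simp_rw [Finset.mul_sum]
        rw [Finset.sum_comm]
        refine Finset.sum_congr rfl fun ω _ => Finset.sum_congr rfl fun x _ => by ring
    _ ≤ ∑ ω, w ω * (A * t * ∑ x, ∑ l, ∑ y, C.π x * C.p x l y * ρ ω (g x l y)) :=
        Finset.sum_le_sum fun ω _ => mul_le_mul_of_nonneg_left (h ω S L C g hg t ht) (hw ω)
    _ = A * t * ∑ ω, ∑ x, ∑ l, ∑ y, C.π x * C.p x l y * (w ω * ρ ω (g x l y)) := by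
        simp_rw [Finset.mul_sum]
        refine Finset.sum_congr rfl fun ω _ => Finset.sum_congr rfl fun x _ =>
          Finset.sum_congr rfl fun l _ => Finset.sum_congr rfl fun y _ => by ring
    _ = _ := by
        congr 1
        rw [Finset.sum_comm]
        refine Finset.sum_congr rfl fun x _ => ?_
        rw [Finset.sum_comm]
        refine Finset.sum_congr rfl fun l _ => ?_
        rw [Finset.sum_comm]
        refine Finset.sum_congr rfl fun y _ => ?_
        rw [Finset.mul_sum]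

theorem W_tendsto {I : Type*} (F : Filter I) (C : LChain S L) (g : S → L → S → V)
    (ρ : I → V → ℝ) (ρ' : V → ℝ) (h : ∀ v, Tendsto (fun i => ρ i v) F (𝓝 (ρ' v))) :
    ∀ t x v, Tendsto (fun i => W C g (ρ i) t x v) F (𝓝 (W C g ρ' t x v))
  | 0, _, v => h v
  | t + 1, x, v => by
      simp only [W]
      exact tendsto_finsetSum _ fun l _ => tendsto_finsetSum _ fun y _ =>
        (W_tendsto F C g ρ ρ' h t y _).const_mul _

theorem Cocycle.of_tendsto {I : Type*} (F : Filter I) [F.NeBot] {A : ℝ}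
    (ρ : I → V → ℝ) (ρ' : V → ℝ) (h : ∀ v, Tendsto (fun i => ρ i v) F (𝓝 (ρ' v)))
    (hc : ∀ᶠ i in F, Cocycle A (ρ i)) : Cocycle A ρ' := by
  intro S L _ _ C g hg t ht
  refine le_of_tendsto_of_tendsto (b := F)
    (f := fun i => ∑ x, C.π x * W C g (ρ i) t x 0)
    (g := fun i => A * t * ∑ x, ∑ l, ∑ y, C.π x * C.p x l y * ρ i (g x l y)) ?_ ?_ ?_
  · exact tendsto_finsetSum _ fun x _ => (W_tendsto F C g ρ ρ' h t x 0).const_mul _
  · exact (tendsto_finsetSum _ fun x _ => tendsto_finsetSum _ fun l _ =>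
      tendsto_finsetSum _ fun y _ => (h _).const_mul _).const_mul _
  · filter_upwards [hc] with i hi using hi S L C g hg t ht

theorem W_le_of_rel {H : Type*} [AddCommGroup H] (C : LChain S L) (g : S → L → S → H)
    (G : S → L → S → V) (N : H → ℝ) (ρ : V → ℝ) (Rel : V → H → Prop)
    (hadd : ∀ v h v' h', Rel v h → Rel v' h' → Rel (v + v') (h + h'))
    (hG : ∀ x l y, Rel (G x l y) (g x l y)) (hN : ∀ v h, Rel v h → N h ≤ ρ v) :
    ∀ t x v h, Rel v h → W C g N t x h ≤ W C G ρ t x v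
  | 0, _, v, h, hr => hN v h hr
  | t + 1, x, v, h, hr => by
      simp only [W]
      exact Finset.sum_le_sum fun l _ => Finset.sum_le_sum fun y _ =>
        mul_le_mul_of_nonneg_left
          (W_le_of_rel C g G N ρ Rel hadd hG hN t y _ _ (hadd _ _ _ _ hr (hG x l y)))
          (C.p_nonneg x l y)

end

/-- The cocycle inequality passes to quotient costs. -/
theorem Cocycle.quot {V H : Type*} [AddCommGroup V] [Module ℝ V] [AddCommGroup H] [Module ℝ H]
    {A : ℝ} (hA : 0 ≤ A) {ρ : V → ℝ} (hc : Cocycle A ρ) (hconv : ConvexOn ℝ Set.univ ρ)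
    (hneg : ∀ v, ρ (-v) = ρ v) (M : Submodule ℝ (V × H)) (N : H → ℝ)
    (hN : ∀ v h, (v, h) ∈ M → N h ≤ ρ v)
    (hN' : ∀ h, ∀ η > 0, ∃ v, (v, h) ∈ M ∧ ρ v ≤ N h + η) : Cocycle A N := by
  intro S L _ _ C g hg t ht
  have key : ∀ η > 0, ∑ x, C.π x * W C g N t x 0 ≤
      A * t * (∑ x, ∑ l, ∑ y, C.π x * C.p x l y * N (g x l y)) + A * t * η := by
    intro η hη
    choose v hv hv' using fun h => hN' h η hη
    let G : S → L → S → V := fun x l y =>
      (1 / 2 : ℝ) • v (g x l y) + (1 / 2 : ℝ) • (- v (g y (C.σ l) x))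
    have hG : ∀ x l y, G y (C.σ l) x = - G x l y := by
      intro x l y
      simp only [G, C.σσ, smul_neg]
      abel
    have hGM : ∀ x l y, (G x l y, g x l y) ∈ M := by
      intro x l y
      have h1 := M.smul_mem (1 / 2 : ℝ) (hv (g x l y))
      have h2 := M.smul_mem (1 / 2 : ℝ) (M.neg_mem (hv (g y (C.σ l) x)))
      have h3 := M.add_mem h1 h2
      convert h3 using 1
      simp only [G, Prod.smul_mk, Prod.neg_mk, Prod.mk_add_mk, hg, neg_neg, Prod.mk.injEq,
        true_and]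
      rw [← add_smul]; norm_num
    have h1 : ∑ x, C.π x * W C g N t x 0 ≤ ∑ x, C.π x * W C G ρ t x 0 :=
      Finset.sum_le_sum fun x _ => mul_le_mul_of_nonneg_left
        (W_le_of_rel C g G N ρ (fun v h => (v, h) ∈ M)
          (fun v h v' h' a b => by simpa using M.add_mem a b) hGM hN t x 0 0 M.zero_mem)
        (C.π_nonneg x)
    have h2 := hc S L C G hG t ht
    have h3 : ∑ x, ∑ l, ∑ y, C.π x * C.p x l y * ρ (G x l y) ≤
        ∑ x, ∑ l, ∑ y, C.π x * C.p x l y *
          ((1 / 2) * (N (g x l y) + η) + (1 / 2) * (N (g y (C.σ l) x) + η)) := by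
      refine Finset.sum_le_sum fun x _ => Finset.sum_le_sum fun l _ =>
        Finset.sum_le_sum fun y _ => mul_le_mul_of_nonneg_left ?_
          (mul_nonneg (C.π_nonneg x) (C.p_nonneg x l y))
      have := hconv.2 (Set.mem_univ (v (g x l y))) (Set.mem_univ (- v (g y (C.σ l) x)))
        (by norm_num : (0 : ℝ) ≤ 1 / 2) (by norm_num : (0 : ℝ) ≤ 1 / 2) (by norm_num)
      simp only [smul_eq_mul, hneg] at this
      have a := hv' (g x l y)
      have b := hv' (g y (C.σ l) x)
      simp only [G]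
      linarith
    have h4 : ∑ x, ∑ l, ∑ y, C.π x * C.p x l y *
          ((1 / 2) * (N (g x l y) + η) + (1 / 2) * (N (g y (C.σ l) x) + η)) =
        (∑ x, ∑ l, ∑ y, C.π x * C.p x l y * N (g x l y)) + η := by
      have e1 := C.sum_symm (fun x l y => N (g x l y))
      have e2 := C.sum_const η
      have : ∑ x, ∑ l, ∑ y, C.π x * C.p x l y *
          ((1 / 2) * (N (g x l y) + η) + (1 / 2) * (N (g y (C.σ l) x) + η)) =
          (1 / 2) * (∑ x, ∑ l, ∑ y, C.π x * C.p x l y * N (g x l y)) +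
          (1 / 2) * (∑ x, ∑ l, ∑ y, C.π x * C.p x l y * N (g y (C.σ l) x)) +
          ∑ x, ∑ l, ∑ y, C.π x * C.p x l y * η := by
        simp only [Finset.mul_sum, ← Finset.sum_add_distrib]
        refine Finset.sum_congr rfl fun x _ => Finset.sum_congr rfl fun l _ =>
          Finset.sum_congr rfl fun y _ => by ring
      rw [this, e1, e2]; ring
    have hAt : 0 ≤ A * t := mul_nonneg hA (Nat.cast_nonneg t)
    calc _ ≤ _ := h1
      _ ≤ _ := h2
      _ ≤ A * t * ((∑ x, ∑ l, ∑ y, C.π x * C.p x l y * N (g x l y)) + η) :=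
        mul_le_mul_of_nonneg_left (h3.trans h4.le) hAt
      _ = _ := by ring
  refine le_of_forall_pos_le_add fun ε hε => ?_
  have hAt : 0 ≤ A * t := mul_nonneg hA (Nat.cast_nonneg t)
  have := key (ε / (A * t + 1)) (by positivity)
  have h2 : A * t * (ε / (A * t + 1)) ≤ ε := by
    rw [mul_div_assoc', div_le_iff₀ (by positivity)]
    nlinarith
  linarith

end Vale.Agent.P125
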