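import Vale.Agent.P125.Cocycle

open Filter Topology Finset

namespace Vale.Agent.P125

section general
variable {S L : Type} [Fintype S] [Fintype L] {V : Type*} [AddCommGroup V]

theorem LChain.stat (C : LChain S L) (F : S → ℝ) :
    ∑ x, C.π x * ∑ l, ∑ y, C.p x l y * F y = ∑ x, C.π x * F x := by
  have h1 := C.sum_symm (fun x _ _ => F x)
  have h2 : ∀ x, ∑ l, ∑ y, C.π x * C.p x l y * F x = C.π x * F x := by
    intro x
    have h := C.p_sum x
    calc ∑ l, ∑ y, C.π x * C.p x l y * F x = C.π x * F x * ∑ l, ∑ y, C.p x l y := by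
          simp_rw [Finset.mul_sum]
          refine Finset.sum_congr rfl fun l _ => Finset.sum_congr rfl fun y _ => by ring
      _ = _ := by rw [h, mul_one]
  simp only [h2] at h1
  rw [← h1]
  simp only [Finset.mul_sum]
  refine Finset.sum_congr rfl fun x _ => Finset.sum_congr rfl fun l _ =>
    Finset.sum_congr rfl fun y _ => by ring

/-- Accumulated probability of a bad step. -/
def gam (C : LChain S L) (β : S → ℝ) : ℕ → S → ℝ
  | 0, _ => 0
  | r + 1, x => β x + ∑ l, ∑ y, C.p x l y * gam C β r y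

theorem gam_nonneg (C : LChain S L) (β : S → ℝ) (hβ : ∀ x, 0 ≤ β x) : ∀ r x, 0 ≤ gam C β r x
  | 0, _ => le_rfl
  | r + 1, x => add_nonneg (hβ x) (Finset.sum_nonneg fun l _ => Finset.sum_nonneg fun y _ =>
      mul_nonneg (C.p_nonneg x l y) (gam_nonneg C β hβ r y))

theorem gam_sum (C : LChain S L) (β : S → ℝ) :
    ∀ r : ℕ, ∑ x, C.π x * gam C β r x = r * ∑ x, C.π x * β x
  | 0 => by simp [gam]
  | r + 1 => by
      simp only [gam, mul_add, Finset.sum_add_distrib, C.stat, gam_sum C β r]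
      push_cast; ring

theorem W_lower (C : LChain S L) (g : S → L → S → V) (ρ : V → ℝ) (hρ : ∀ v, 0 ≤ ρ v)
    (lam : ℝ) (hlam : 0 ≤ lam) (t : ℕ) {J : Type*} (I : ℕ → S → J → V → Prop)
    (bad : J → L → Bool) (β : S → ℝ) (hβ0 : ∀ x, 0 ≤ β x)
    (hβ : ∀ x j, ∑ l, ∑ y, (if bad j l then C.p x l y else 0) ≤ β x)
    (hstep : ∀ m x j v l y, m < t → I m x j v → ¬ bad j l → C.p x l y ≠ 0 →
      ∃ j', I (m + 1) y j' (v + g x l y))
    (hend : ∀ x j v, I t x j v → lam ≤ ρ v) (h0 : ∀ x, ∃ j, I 0 x j 0) :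
    lam * (1 - t * ∑ x, C.π x * β x) ≤ ∑ x, C.π x * W C g ρ t x 0 := by
  have key : ∀ r m, m + r = t → ∀ x j v, I m x j v → lam * (1 - gam C β r x) ≤ W C g ρ r x v := by
    intro r
    induction r with
    | zero =>
      intro m hm x j v hI
      simp only [add_zero] at hm
      subst hm
      simpa [gam, W] using hend x j v hI
    | succ r ih =>
      intro m hm x j v hI
      simp only [W, gam]
      have h1 : ∀ l y, lam * (C.p x l y - (if bad j l then C.p x l y else 0) -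
          C.p x l y * gam C β r y) ≤ C.p x l y * W C g ρ r y (v + g x l y) := by
        intro l y
        have hp := C.p_nonneg x l y
        have hg := gam_nonneg C β hβ0 r y
        have hW := W_nonneg C g ρ hρ r y (v + g x l y)
        by_cases hb : bad j l
        · rw [if_pos hb]
          have := mul_nonneg hlam (mul_nonneg hp hg)
          have := mul_nonneg hp hW
          nlinarith
        · rw [if_neg hb]
          by_cases hp0 : C.p x l y = 0
          · simp [hp0]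
          obtain ⟨j', hj'⟩ := hstep m x j v l y (by omega) hI hb hp0
          have := mul_le_mul_of_nonneg_left (ih (m + 1) (by omega) y j' _ hj') hp
          nlinarith
      refine le_trans ?_ (Finset.sum_le_sum fun l _ => Finset.sum_le_sum fun y _ => h1 l y)
      simp only [← Finset.mul_sum, Finset.sum_sub_distrib, C.p_sum]
      refine mul_le_mul_of_nonneg_left ?_ hlam
      have := hβ x j
      linarith
  have h2 : ∑ x, C.π x * (lam * (1 - gam C β t x)) ≤ ∑ x, C.π x * W C g ρ t x 0 := by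
    refine Finset.sum_le_sum fun x _ => mul_le_mul_of_nonneg_left ?_ (C.π_nonneg x)
    obtain ⟨j, hj⟩ := h0 x
    exact key t 0 (by omega) x j 0 hj
  refine le_trans (le_of_eq ?_) h2
  rw [← gam_sum]
  have : ∀ x, C.π x * (lam * (1 - gam C β t x)) = lam * (C.π x - C.π x * gam C β t x) := by
    intro x; ring
  simp only [this, ← Finset.mul_sum, Finset.sum_sub_distrib, C.π_sum]

end general

/-- Index of the `q`-th kept point for position `i`. -/
def idx (d i q : ℕ) : ℕ := i + (q / 2) * d + q % 2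

theorem idx_even (d i k : ℕ) : idx d i (2 * k) = i + k * d := by
  simp [idx]

theorem idx_odd (d i k : ℕ) : idx d i (2 * k + 1) = i + k * d + 1 := by
  have h1 : (2 * k + 1) / 2 = k := by omega
  have h2 : (2 * k + 1) % 2 = 1 := by omega
  simp [idx, h1, h2]

theorem idx_even' (d i k : ℕ) : idx d i (2 * k + 2) = i + k * d + d := by
  rw [show 2 * k + 2 = 2 * (k + 1) by ring, idx_even]; ring

theorem idx_odd' (d i k : ℕ) : idx d i (2 * k + 3) = i + k * d + d + 1 := by
  rw [show 2 * k + 3 = 2 * (k + 1) + 1 by ring, idx_odd]; ring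

theorem idx_even'' (d i k : ℕ) : idx d i (2 * k + 4) = i + k * d + 2 * d := by
  rw [show 2 * k + 4 = 2 * (k + 2) by ring, idx_even]; ring

theorem idx_lt {d i s q : ℕ} (hi : i < d) (hq : q ≤ 2 * s + 1) : idx d i q < (s + 1) * d + 1 := by
  have h1 : q / 2 ≤ s := by omega
  have h2 : q % 2 ≤ 1 := by omega
  have h3 := Nat.mul_le_mul_right d h1
  unfold idx
  rw [add_mul]
  omega

theorem idx_strictMono {d : ℕ} (hd : 2 ≤ d) (i : ℕ) : StrictMono (idx d i) := by
  refine strictMono_nat_of_lt_succ fun q => ?_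
  rcases Nat.even_or_odd' q with ⟨k, rfl | rfl⟩
  · rw [idx_even, idx_odd]; omega
  · rw [idx_odd, show 2 * k + 1 + 1 = 2 * k + 2 by ring, idx_even']; omega

/-- The invariant along a non-backtracking path. -/
def Inv (d s m : ℕ) (z : ℕ → ℕ) (j : ℕ) (v : ℕ → ℝ) : Prop :=
  ∀ q, 2 * m ≤ q → q + 2 * m < 2 * s →
    (q % 2 = 1 → ∀ u, z (idx d j q) ≤ u → u < z (idx d j (q + 1)) → v u = m) ∧
    (q % 2 = 0 → ∃ u, z (idx d j q) ≤ u ∧ u < z (idx d j (q + 1)) ∧ v u = -m)

theorem Inv.move {d s m : ℕ} {z : ℕ → ℕ} {i j : ℕ} {v : ℕ → ℝ}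
    (hz : ∀ a b, a ≤ b → b < (s + 1) * d + 1 → z a ≤ z b) (hi : i < d) (hj : j < d)
    (hij : i ≠ j) (h : Inv d s m z j v) (q : ℕ) (h1 : 2 * m + 1 ≤ q) (h2 : q + 2 * m + 1 < 2 * s) :
    (q % 2 = 0 → ∀ u, z (idx d i q) ≤ u → u < z (idx d i (q + 1)) → v u = m) ∧
    (q % 2 = 1 → ∃ u, z (idx d i q) ≤ u ∧ u < z (idx d i (q + 1)) ∧ v u = -m) := by
  constructor
  · intro hq u hu1 hu2
    obtain ⟨k, rfl⟩ : ∃ k, q = 2 * k + 2 := ⟨q / 2 - 1, by omega⟩
    have b1 : idx d i (2 * k + 2) < (s + 1) * d + 1 := idx_lt hi (by omega)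
    rcases lt_or_gt_of_ne hij with hlt | hlt
    · have b2 : idx d j (2 * k + 1 + 1) < (s + 1) * d + 1 := idx_lt hj (by omega)
      refine (h (2 * k + 1) (by omega) (by omega)).1 (by omega) u
        (le_trans (hz _ _ ?_ b1) hu1) (lt_of_lt_of_le hu2 (hz _ _ ?_ b2))
      · rw [idx_odd, idx_even']; omega
      · rw [show 2 * k + 2 + 1 = 2 * k + 3 by ring, show 2 * k + 1 + 1 = 2 * k + 2 by ring,
          idx_odd', idx_even']; omega
    · have b2 : idx d j (2 * k + 3 + 1) < (s + 1) * d + 1 := idx_lt hj (by omega)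
      refine (h (2 * k + 3) (by omega) (by omega)).1 (by omega) u
        (le_trans (hz _ _ ?_ b1) hu1) (lt_of_lt_of_le hu2 (hz _ _ ?_ b2))
      · rw [idx_odd', idx_even']; omega
      · rw [show 2 * k + 2 + 1 = 2 * k + 3 by ring, show 2 * k + 3 + 1 = 2 * k + 4 by ring,
          idx_odd', idx_even'']; omega
  · intro hq
    obtain ⟨k, rfl⟩ : ∃ k, q = 2 * k + 1 := ⟨q / 2, by omega⟩
    have b1 : idx d i (2 * k + 1 + 1) < (s + 1) * d + 1 := idx_lt hi (by omega)
    rcases lt_or_gt_of_ne hij with hlt | hlt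
    · obtain ⟨u, hu1, hu2, hu3⟩ := (h (2 * k) (by omega) (by omega)).2 (by omega)
      have b2 : idx d j (2 * k) < (s + 1) * d + 1 := idx_lt hj (by omega)
      refine ⟨u, le_trans (hz _ _ ?_ b2) hu1, lt_of_lt_of_le hu2 (hz _ _ ?_ b1), hu3⟩
      · rw [idx_odd, idx_even]; omega
      · rw [show 2 * k + 1 + 1 = 2 * k + 2 by ring, idx_odd, idx_even']; omega
    · obtain ⟨u, hu1, hu2, hu3⟩ := (h (2 * k + 2) (by omega) (by omega)).2 (by omega)
      have b2 : idx d j (2 * k + 2) < (s + 1) * d + 1 := idx_lt hj (by omega)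
      refine ⟨u, le_trans (hz _ _ ?_ b2) hu1, lt_of_lt_of_le hu2 (hz _ _ ?_ b1), hu3⟩
      · rw [idx_odd, idx_even']; omega
      · rw [show 2 * k + 1 + 1 = 2 * k + 2 by ring, show 2 * k + 2 + 1 = 2 * k + 3 by ring,
          idx_odd', idx_even']; omega

theorem Inv.step {d s m : ℕ} {z z' : ℕ → ℕ} {i j j' τ τ' : ℕ} {v g : ℕ → ℝ}
    (hz : ∀ a b, a ≤ b → b < (s + 1) * d + 1 → z a ≤ z b) (hi : i < d) (hj : j < d)
    (hij : i ≠ j) (hτ : τ + τ' = 1)
    (hzz : ∀ q, q ≤ 2 * s → z (idx d i (q + τ)) = z' (idx d j' (q + τ')))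
    (hg : ∀ q, q < 2 * s → ∀ u, z (idx d i (q + τ)) ≤ u → u < z (idx d i (q + 1 + τ)) →
      g u = (-1) ^ (q + 1 + τ + 1))
    (h : Inv d s m z j v) : Inv d s (m + 1) z' j' (v + g) := by
  intro q' h1 h2
  obtain ⟨q, rfl⟩ : ∃ q, q' = q + τ' := ⟨q' - τ', by omega⟩
  have e1 := hzz q (by omega)
  have e2 := hzz (q + 1) (by omega)
  have e3 : q + τ' + 1 = q + 1 + τ' := by ring
  have e4 : q + τ + 1 = q + 1 + τ := by ring
  obtain ⟨m1, m2⟩ := h.move hz hi hj hij (q + τ) (by omega) (by omega)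
  rw [e3, ← e1, ← e2]
  rw [e4] at m1 m2
  constructor
  · intro hq u hu1 hu2
    have a := m1 (by omega) u hu1 hu2
    have b := hg q (by omega) u hu1 hu2
    have c : Even (q + 1 + τ + 1) := by rw [Nat.even_iff]; omega
    rw [Pi.add_apply, a, b, c.neg_one_pow]; push_cast; ring
  · intro hq
    obtain ⟨u, hu1, hu2, hu3⟩ := m2 (by omega)
    refine ⟨u, hu1, hu2, ?_⟩
    have b := hg q (by omega) u hu1 hu2
    have c : Odd (q + 1 + τ + 1) := by rw [Nat.odd_iff]; omega
    rw [Pi.add_apply, hu3, b, c.neg_one_pow]; push_cast; ring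

theorem Inv.zero {d s : ℕ} (hd : 2 ≤ d) {z : ℕ → ℕ} {j : ℕ} (hj : j < d)
    (hz : ∀ a b, a < b → b < (s + 1) * d + 1 → z a < z b) : Inv d s 0 z j 0 := by
  intro q _ h2
  refine ⟨fun _ u _ _ => by simp, fun _ => ⟨_, le_rfl, ?_, by simp⟩⟩
  exact hz _ _ (idx_strictMono hd j (Nat.lt_succ_self q)) (idx_lt hj (by omega))

theorem Inv.final {d s t N : ℕ} (hd : 2 ≤ d) {z : ℕ → ℕ} {j : ℕ} (hj : j < d) {v : ℕ → ℝ}
    (hz : ∀ a b, a < b → b < (s + 1) * d + 1 → z a < z b) (hN : ∀ a, z a ≤ N)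
    (h : Inv d s t z j v) : ∃ u : ℕ → ℕ, (∀ r r', r < r' → r' + 4 * t < 2 * s → u r < u r') ∧
      ∀ r, r + 4 * t < 2 * s → u r < N ∧ v (u r) = (-1) ^ (r + 1) * t := by
  have key : ∀ r, ∃ u, r + 4 * t < 2 * s → z (idx d j (2 * t + r)) ≤ u ∧
      u < z (idx d j (2 * t + r + 1)) ∧ v u = (-1) ^ (r + 1) * t := by
    intro r
    by_cases hr : r + 4 * t < 2 * s
    · obtain ⟨h1, h2⟩ := h (2 * t + r) (by omega) (by omega)
      rcases Nat.mod_two_eq_zero_or_one r with h3 | h3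
      · obtain ⟨u, a, b, c⟩ := h2 (by omega)
        refine ⟨u, fun _ => ⟨a, b, ?_⟩⟩
        have : Odd (r + 1) := by rw [Nat.odd_iff]; omega
        rw [c, this.neg_one_pow]; ring
      · have b := hz _ _ (idx_strictMono hd j (Nat.lt_succ_self (2 * t + r)))
          (idx_lt hj (by omega))
        refine ⟨_, fun _ => ⟨le_rfl, b, ?_⟩⟩
        have : Even (r + 1) := by rw [Nat.even_iff]; omega
        rw [h1 (by omega) _ le_rfl b, this.neg_one_pow]; ring
    · exact ⟨0, fun h => absurd h hr⟩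
  choose u hu using key
  refine ⟨u, fun r r' h1 h2 => ?_, fun r hr => ⟨(hu r hr).2.1.trans_le (hN _), (hu r hr).2.2⟩⟩
  have a := (hu r (by omega)).2.1
  have b := (hu r' h2).1
  refine a.trans_le (le_trans ?_ b)
  rcases (show 2 * t + r + 1 ≤ 2 * t + r' by omega).eq_or_lt with e | e
  · rw [e]
  · exact (hz _ _ (idx_strictMono hd j e) (idx_lt hj (by omega))).le

/-- Number of points of `y` that are at most `u`. -/
def cnt {k : ℕ} (y : Fin k → ℕ) (u : ℕ) : ℕ := (Finset.univ.filter fun c => y c ≤ u).card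

theorem cnt_le {k : ℕ} (y : Fin k → ℕ) (u : ℕ) : cnt y u ≤ k := by
  simpa [cnt] using Finset.card_filter_le (Finset.univ : Finset (Fin k)) (fun c => y c ≤ u)

theorem cnt_mono {k : ℕ} (y : Fin k → ℕ) : Monotone (cnt y) := by
  intro u u' h
  refine Finset.card_le_card fun c hc => ?_
  simp only [Finset.mem_filter, Finset.mem_univ, true_and] at hc ⊢
  exact hc.trans h

theorem cnt_eq {k : ℕ} {y : Fin k → ℕ} (hy : Monotone y) {q : ℕ} (hq : q + 1 < k) {u : ℕ}
    (h1 : y ⟨q, by omega⟩ ≤ u) (h2 : u < y ⟨q + 1, hq⟩) : cnt y u = q + 1 := by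
  have : (Finset.univ.filter fun c => y c ≤ u) = Finset.Iic (⟨q, by omega⟩ : Fin k) := by
    ext c
    simp only [Finset.mem_filter, Finset.mem_univ, true_and, Finset.mem_Iic]
    constructor
    · intro hc
      by_contra hlt
      push Not at hlt
      have : (⟨q + 1, hq⟩ : Fin k) ≤ c := by
        rw [Fin.lt_def] at hlt
        rw [Fin.le_def]
        exact hlt
      have := hy this
      omega
    · intro hc
      exact (hy hc).trans h1
  rw [cnt, this, Fin.card_Iic]

end Vale.Agent.P125
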