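import Vale.Agent.P125.Chain

open Filter Topology Finset

namespace Vale.Agent.P125

/-- A spreading cost system. -/
structure CostSys (p A a b : ℝ) (ν : (m : ℕ) → (Fin m → ℝ) → ℝ) : Prop where
  nonneg : ∀ m h, 0 ≤ ν m h
  homog : ∀ m (c : ℝ) h, ν m (c • h) = |c| ^ p * ν m h
  mono : ∀ m k (φ : Fin k → Fin m), StrictMono φ → ∀ h, ν k (h ∘ φ) ≤ ν m h
  lower : a ≤ ν 1 (fun _ => 1)
  upper : ∀ m s (κ : Fin m → ℕ), Monotone κ → (∀ c, κ c ≤ s) →
    ν m (fun c => (-1) ^ κ c) ≤ b * (4 * s + 1) ^ p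
  cocycle : ∀ m, Cocycle A (ν m)

theorem exists_doubling (Λ : ℕ → ℝ) {a b p : ℝ} (ha : 0 < a) (h1 : a ≤ Λ 1)
    (h2 : ∀ s : ℕ, Λ s ≤ b * (4 * s + 1) ^ p) (D : ℕ) :
    ∃ k, Λ (1 + (k + 1) * D) ≤ 2 * Λ (1 + k * D) := by
  by_contra hcon
  push Not at hcon
  have h3 : ∀ k, 2 ^ k * a ≤ Λ (1 + k * D) := by
    intro k
    induction k with
    | zero => simpa using h1
    | succ k ih =>
      have := hcon k
      rw [pow_succ]
      linarith
  obtain ⟨n, hn⟩ := exists_nat_ge p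
  have hb : 0 ≤ b := by
    by_contra hb
    push Not at hb
    have := h2 1
    have : b * (4 * ((1 : ℕ) : ℝ) + 1) ^ p < 0 := mul_neg_of_neg_of_pos hb (by positivity)
    linarith
  have h4 : ∀ k : ℕ, 1 ≤ k → a ≤ b * (5 + 4 * D) ^ n * ((k : ℝ) ^ n / 2 ^ k) := by
    intro k hk
    have hk' : (1 : ℝ) ≤ k := by exact_mod_cast hk
    have hD : (0 : ℝ) ≤ D := Nat.cast_nonneg D
    have e1 : (4 * ((1 + k * D : ℕ) : ℝ) + 1) ^ p ≤ ((5 + 4 * D) * k) ^ n := by
      have : (1 : ℝ) ≤ 4 * ((1 + k * D : ℕ) : ℝ) + 1 := by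
        have : (0 : ℝ) ≤ ((1 + k * D : ℕ) : ℝ) := Nat.cast_nonneg _
        linarith
      calc (4 * ((1 + k * D : ℕ) : ℝ) + 1) ^ p ≤ (4 * ((1 + k * D : ℕ) : ℝ) + 1) ^ (n : ℝ) :=
            Real.rpow_le_rpow_of_exponent_le this hn
        _ = (4 * ((1 + k * D : ℕ) : ℝ) + 1) ^ n := Real.rpow_natCast _ _
        _ ≤ _ := by
            refine pow_le_pow_left₀ (by linarith) ?_ n
            push_cast
            nlinarith
    have e2 := (h3 k).trans ((h2 _).trans (mul_le_mul_of_nonneg_left e1 hb))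
    rw [mul_div_assoc', le_div_iff₀ (by positivity), mul_assoc, ← mul_pow]
    linarith
  have h5 := (tendsto_pow_const_div_const_pow_of_one_lt n (r := 2) (by norm_num)).const_mul
    (b * (5 + 4 * D) ^ n)
  rw [mul_zero] at h5
  have := ge_of_tendsto h5 (by filter_upwards [eventually_ge_atTop 1] with k hk using h4 k hk)
  linarith

theorem CostSys.false {p A a b : ℝ} {ν : (m : ℕ) → (Fin m → ℝ) → ℝ} (hp : 1 < p) (hA : 0 ≤ A)
    (ha : 0 < a) (h : CostSys p A a b ν) : False := by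
  let Z : ℕ → Set ℝ := fun s => {r | ∃ (m : ℕ) (κ : Fin m → ℕ), Monotone κ ∧ (∀ c, κ c ≤ s) ∧
    r = ν m (fun c => (-1) ^ κ c)}
  let Λ : ℕ → ℝ := fun s => sSup (Z s)
  have hZb : ∀ s, ∀ r ∈ Z s, r ≤ b * (4 * s + 1) ^ p := by
    rintro s r ⟨m, κ, h1, h2, rfl⟩
    exact h.upper m s κ h1 h2
  have hZ1 : ∀ s, ν 1 (fun _ => 1) ∈ Z s := fun s =>
    ⟨1, fun _ => 0, monotone_const, fun _ => Nat.zero_le _, by simp⟩
  have hle : ∀ s, ∀ r ∈ Z s, r ≤ Λ s := fun s r hr => le_csSup ⟨_, hZb s⟩ hr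
  have hΛa : ∀ s, a ≤ Λ s := fun s => h.lower.trans (hle s _ (hZ1 s))
  have hΛb : ∀ s, Λ s ≤ b * (4 * s + 1) ^ p := fun s => csSup_le ⟨_, hZ1 s⟩ (hZb s)
  -- choose the number of steps
  obtain ⟨t, ht1, ht⟩ : ∃ t : ℕ, 1 ≤ t ∧ 8 * A < (t : ℝ) ^ (p - 1) := by
    have := ((tendsto_rpow_atTop (by linarith : 0 < p - 1)).comp
      tendsto_natCast_atTop_atTop).eventually (eventually_gt_atTop (8 * A))
    obtain ⟨t, h1, h2⟩ := ((eventually_ge_atTop 1).and this).exists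
    exact ⟨t, h1, h2⟩
  obtain ⟨k, hk⟩ := exists_doubling Λ ha (hΛa 1) hΛb (4 * t + 4)
  set s' := 1 + k * (4 * t + 4) with hs'
  set s := 1 + k * (2 * t + 2) + 2 * t with hs
  have hss : 2 * s = s' + 4 * t + 1 := by rw [hs, hs']; ring
  have hk' : Λ (2 * s + 3) ≤ 2 * Λ s' := by
    rw [show 2 * s + 3 = 1 + (k + 1) * (4 * t + 4) by rw [hs]; ring]
    exact hk
  have hpos : 0 < Λ s' := ha.trans_le (hΛa s')
  obtain ⟨r, ⟨m, κ, hκ1, hκ2, rfl⟩, hr⟩ := exists_lt_of_lt_csSup ⟨_, hZ1 s'⟩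
    (show Λ s' / 2 < sSup (Z s') from half_lt_self hpos)
  obtain ⟨S, L, _, _, C, g, N, hg1, hg2, hg3⟩ := exists_chain (4 * t + 2) s t (by omega) (by omega)
  let T : (ℕ → ℝ) →+ (Fin (N * (m + 1)) → ℝ) :=
    { toFun := fun v c => v (c / (m + 1))
      map_zero' := rfl
      map_add' := fun _ _ => rfl }
  have hc := (h.cocycle (N * (m + 1))).comp T S L C g hg1 t ht1
  have ht0 : (0 : ℝ) < t := by exact_mod_cast ht1
  have hlow := hg3 (fun v => ν _ (T v)) ((t : ℝ) ^ p * (Λ s' / 2)) (fun v => h.nonneg _ _)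
    (by positivity) (by
      intro v u hu1 hu2
      have hlt : ∀ c : Fin m, u (κ c) * (m + 1) + c < N * (m + 1) := by
        intro c
        have h1 := (hu2 (κ c) (by have := hκ2 c; omega)).1
        have h2 := c.2
        have h3 := Nat.mul_le_mul_right (m + 1) (Nat.succ_le_of_lt h1)
        rw [Nat.succ_mul] at h3
        omega
      let φ : Fin m → Fin (N * (m + 1)) := fun c => ⟨_, hlt c⟩
      have hφ : StrictMono φ := by
        intro c c' hcc
        simp only [φ, Fin.mk_lt_mk]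
        have h1 : u (κ c) ≤ u (κ c') := by
          rcases (hκ1 hcc.le).eq_or_lt with e | e
          · rw [e]
          · exact (hu1 _ _ e (by have := hκ2 c'; omega)).le
        have h2 := Nat.mul_le_mul_right (m + 1) h1
        have h3 := Fin.lt_def.1 hcc
        omega
      have h1 := h.mono _ _ φ hφ (T v)
      have h2 : T v ∘ φ = (-(t : ℝ)) • fun c => (-1 : ℝ) ^ κ c := by
        funext c
        have e : (u (κ c) * (m + 1) + c) / (m + 1) = u (κ c) := by
          rw [add_comm, Nat.add_mul_div_right _ _ (Nat.succ_pos m),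
            Nat.div_eq_of_lt (by have := c.2; omega), zero_add]
        change v ((u (κ c) * (m + 1) + c) / (m + 1)) = _
        rw [e, (hu2 (κ c) (by have := hκ2 c; omega)).2]
        simp [pow_succ]
        ring
      rw [h2, h.homog, abs_neg, abs_of_pos ht0] at h1
      exact le_trans (mul_le_mul_of_nonneg_left hr.le (by positivity)) h1)
  have hup : ∑ x, ∑ l, ∑ y, C.π x * C.p x l y * ν _ (T (g x l y)) ≤ Λ (2 * s + 3) := by
    rw [← C.sum_const (Λ (2 * s + 3))]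
    refine Finset.sum_le_sum fun x _ => Finset.sum_le_sum fun l _ =>
      Finset.sum_le_sum fun y _ => mul_le_mul_of_nonneg_left ?_
        (mul_nonneg (C.π_nonneg x) (C.p_nonneg x l y))
    rcases hg2 x l y with e | ⟨κ', h1, h2, e⟩
    · rw [e, map_zero]
      have := h.homog (N * (m + 1)) 0 0
      rw [zero_smul, abs_zero, Real.zero_rpow (by linarith), zero_mul] at this
      rw [this]
      exact (ha.trans_le (hΛa _)).le
    · rw [e]
      exact hle _ _ ⟨N * (m + 1), fun c => κ' (c / (m + 1)),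
        fun c c' hcc => h1 (Nat.div_le_div_right hcc), fun c => h2 _, rfl⟩
  have h1 := hlow.trans (hc.trans (mul_le_mul_of_nonneg_left (hup.trans hk')
    (mul_nonneg hA ht0.le)))
  have h2 : (t : ℝ) ^ p = t ^ (p - 1) * t := by
    rw [Real.rpow_sub_one ht0.ne']; field_simp
  rw [h2] at h1
  have h3 := mul_pos ht0 hpos
  nlinarith

end Vale.Agent.P125
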