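import Vale.Agent.P125.Cocycle

open Filter Topology Finset

namespace Vale.Agent.P125

/-- Markov type inequality with constant `A` for chains on arbitrary finite types. -/
def MT (X : Type*) [NormedAddCommGroup X] (p A : ℝ) : Prop :=
  ∀ (S : Type) [Fintype S] [DecidableEq S] (π : S → ℝ) (P : Matrix S S ℝ),
    (∀ i, 0 ≤ π i) → ∑ i, π i = 1 → (∀ i j, 0 ≤ P i j) → (∀ i, ∑ j, P i j = 1) →
    (∀ i j, π i * P i j = π j * P j i) →
    ∀ (f : S → X) (t : ℕ), 1 ≤ t →
      ∑ i, ∑ j, π i * (P ^ t) i j * ‖f j - f i‖ ^ p ≤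
        A * t * ∑ i, ∑ j, π i * P i j * ‖f j - f i‖ ^ p

theorem HasMarkovType.mt {X : Type*} [NormedAddCommGroup X] {p : ℝ} (h : HasMarkovType X p) :
    ∃ A : ℝ, 0 ≤ A ∧ MT X p A := by
  obtain ⟨K, hK, h⟩ := h
  refine ⟨K ^ p, Real.rpow_nonneg hK p, ?_⟩
  intro S _ _ π P h1 h2 h3 h4 h5 f t ht
  let e := Fintype.equivFin S
  have hpow : ∀ i j, ((Matrix.reindex e e P) ^ t) (e i) (e j) = (P ^ t) i j := by
    intro i j
    have := map_pow (Matrix.reindexAlgEquiv ℝ ℝ e) P t
    simp only [Matrix.coe_reindexAlgEquiv] at this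
    rw [← this]
    simp
  have := h (Fintype.card S) (fun i => π (e.symm i)) (Matrix.reindex e e P)
    (fun i => h1 _) (by rw [Equiv.sum_comp e.symm π, h2]) (fun i j => by simpa using h3 _ _)
    (fun i => by
      simp only [Matrix.reindex_apply, Matrix.submatrix_apply]
      rw [Equiv.sum_comp e.symm (fun j => P (e.symm i) j), h4])
    (fun i j => by simpa using h5 _ _) (fun i => f (e.symm i)) t ht
  rw [← Equiv.sum_comp e, ← Equiv.sum_comp e
    (fun i => ∑ j, π (e.symm i) * (Matrix.reindex e e P) i j * ‖f (e.symm j) - f (e.symm i)‖ ^ p)]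
    at this
  simp only [Equiv.symm_apply_apply] at this
  convert this using 2
  · rename_i i _
    rw [← Equiv.sum_comp e]
    simp only [hpow, Equiv.symm_apply_apply]
  · refine Finset.sum_congr rfl fun i _ => ?_
    rw [← Equiv.sum_comp e]
    simp

section cover
variable {S L : Type} [Fintype S] [Fintype L] [DecidableEq S] [DecidableEq L]

/-- Box of integer vectors. -/
noncomputable def box (E : Type) [Fintype E] [DecidableEq E] (R : ℕ) : Finset (E → ℤ) :=
  Fintype.piFinset (fun _ : E => Finset.Icc (-(R : ℤ)) R)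

theorem mem_box {E : Type} [Fintype E] [DecidableEq E] {R : ℕ} {h : E → ℤ} :
    h ∈ box E R ↔ ∀ e, |h e| ≤ R := by
  simp [box, Fintype.mem_piFinset, abs_le]

theorem card_box (E : Type) [Fintype E] [DecidableEq E] (R : ℕ) :
    (box E R).card = (2 * R + 1) ^ Fintype.card E := by
  simp only [box, Fintype.card_piFinset, Int.card_Icc, Finset.prod_const, Finset.card_univ]
  congr 1
  omega

/-- Increment of the counter along an edge. -/
def incr (C : LChain S L) (x : S) (l : L) (y : S) : S × L × S → ℤ :=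
  Pi.single (x, l, y) 1 - Pi.single (y, C.σ l, x) 1

theorem incr_symm (C : LChain S L) (x : S) (l : L) (y : S) :
    incr C y (C.σ l) x = - incr C x l y := by
  simp [incr, C.σσ]

theorem abs_incr_le (C : LChain S L) (x : S) (l : L) (y : S) (e : S × L × S) :
    |incr C x l y e| ≤ 1 := by
  simp only [incr, Pi.sub_apply, Pi.single_apply]
  split_ifs <;> simp

/-- One step in the truncated abelian cover. -/
noncomputable def step (C : LChain S L) (R : ℕ) (z : S × {h // h ∈ box (S × L × S) R}) (l : L) (y : S) :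
    S × {h // h ∈ box (S × L × S) R} :=
  if hh : z.2.1 + incr C z.1 l y ∈ box (S × L × S) R then (y, ⟨_, hh⟩) else z

/-- Transition matrix of the truncated abelian cover. -/
noncomputable def coverP (C : LChain S L) (R : ℕ) :
    Matrix (S × {h // h ∈ box (S × L × S) R}) (S × {h // h ∈ box (S × L × S) R}) ℝ :=
  fun z z' => ∑ l, ∑ y, if step C R z l y = z' then C.p z.1 l y else 0

theorem coverP_sum (C : LChain S L) (R : ℕ) (z : S × {h // h ∈ box (S × L × S) R})
    (F : S × {h // h ∈ box (S × L × S) R} → ℝ) :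
    ∑ z', coverP C R z z' * F z' = ∑ l, ∑ y, C.p z.1 l y * F (step C R z l y) := by
  simp only [coverP, Finset.sum_mul]
  rw [Finset.sum_comm]
  refine Finset.sum_congr rfl fun l _ => ?_
  rw [Finset.sum_comm]
  refine Finset.sum_congr rfl fun y _ => ?_
  simp [ite_mul]

theorem step_eq_iff (C : LChain S L) (R : ℕ) {z z' : S × {h // h ∈ box (S × L × S) R}}
    (hne : z ≠ z') (l : L) (y : S) :
    step C R z l y = z' ↔ y = z'.1 ∧ z'.2.1 = z.2.1 + incr C z.1 l z'.1 := by
  unfold step
  split_ifs with hh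
  · constructor
    · rintro rfl
      exact ⟨rfl, rfl⟩
    · rintro ⟨rfl, h2⟩
      refine Prod.ext rfl (Subtype.ext h2.symm)
  · constructor
    · intro h; exact absurd h hne
    · rintro ⟨rfl, h2⟩
      exact absurd (h2 ▸ z'.2.2) hh

theorem coverP_rev (C : LChain S L) (R : ℕ) (z z' : S × {h // h ∈ box (S × L × S) R}) :
    C.π z.1 * coverP C R z z' = C.π z'.1 * coverP C R z' z := by
  by_cases hne : z = z'
  · rw [hne]
  simp only [coverP, step_eq_iff C R hne, step_eq_iff C R (Ne.symm hne), ite_and,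
    Finset.sum_ite_eq', Finset.mem_univ, if_true, Finset.mul_sum]
  rw [← C.sum_σ (fun l => C.π z'.1 * if z.2.1 = z'.2.1 + incr C z'.1 l z.1 then C.p z'.1 l z.1
    else 0)]
  refine Finset.sum_congr rfl fun l _ => ?_
  rw [incr_symm]
  have : (z'.2.1 = z.2.1 + incr C z.1 l z'.1) ↔ (z.2.1 = z'.2.1 + - incr C z.1 l z'.1) := by
    constructor
    · intro h; rw [h]; abel
    · intro h; rw [h]; abel
  by_cases h : z'.2.1 = z.2.1 + incr C z.1 l z'.1
  · rw [if_pos h, if_pos (this.1 h), C.rev]
  · rw [if_neg h, if_neg (fun h' => h (this.2 h'))]; simp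

variable {X : Type*} [NormedAddCommGroup X] [NormedSpace ℝ X]

/-- The potential on the cover. -/
noncomputable def pot (g : S → L → S → X) (h : S × L × S → ℤ) : X :=
  (1 / 2 : ℝ) • ∑ e, (h e : ℝ) • g e.1 e.2.1 e.2.2

theorem pot_add_incr (C : LChain S L) (g : S → L → S → X)
    (hg : ∀ x l y, g y (C.σ l) x = - g x l y) (h : S × L × S → ℤ) (x : S) (l : L) (y : S) :
    pot g (h + incr C x l y) = pot g h + g x l y := by
  have h1 : ∀ e0 : S × L × S, ∑ e, (((Pi.single e0 1 : S × L × S → ℤ) e : ℤ) : ℝ) •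
      g e.1 e.2.1 e.2.2 = g e0.1 e0.2.1 e0.2.2 := by
    intro e0
    rw [Finset.sum_eq_single e0]
    · simp
    · intro b _ hb
      simp [hb]
    · simp
  simp only [pot, incr, Pi.add_apply, Pi.sub_apply, Int.cast_add, Int.cast_sub, add_smul,
    sub_smul, Finset.sum_add_distrib, Finset.sum_sub_distrib, h1, hg, smul_add]
  congr 1
  rw [sub_neg_eq_add, smul_add, ← add_smul]; norm_num

theorem cover_pow (C : LChain S L) (R : ℕ) (g : S → L → S → X)
    (hg : ∀ x l y, g y (C.σ l) x = - g x l y) (ρ : X → ℝ) (v : X) :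
    ∀ (t : ℕ) (z : S × {h // h ∈ box (S × L × S) R}), (∀ e, |z.2.1 e| + t ≤ R) →
      ∑ z', (coverP C R ^ t) z z' * ρ (pot g z'.2.1 - v) = W C g ρ t z.1 (pot g z.2.1 - v)
  | 0, z, _ => by
      simp [W, Matrix.one_apply, ite_mul]
  | t + 1, z, hz => by
      have h1 : ∑ z', (coverP C R ^ (t + 1)) z z' * ρ (pot g z'.2.1 - v) =
          ∑ z'', coverP C R z z'' * ∑ z', (coverP C R ^ t) z'' z' * ρ (pot g z'.2.1 - v) := by
        simp only [pow_succ', Matrix.mul_apply, Finset.sum_mul, Finset.mul_sum]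
        rw [Finset.sum_comm]
        refine Finset.sum_congr rfl fun a _ => Finset.sum_congr rfl fun b _ => by ring
      rw [h1, coverP_sum]
      simp only [W]
      refine Finset.sum_congr rfl fun l _ => Finset.sum_congr rfl fun y _ => ?_
      congr 1
      have hb : ∀ e, |(z.2.1 + incr C z.1 l y) e| + t ≤ R := by
        intro e
        have a := hz e
        have b := abs_incr_le C z.1 l y e
        have c := abs_add_le (z.2.1 e) (incr C z.1 l y e)
        push_cast at a
        simp only [Pi.add_apply]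
        linarith
      have hh : z.2.1 + incr C z.1 l y ∈ box (S × L × S) R := by
        rw [mem_box]
        intro e
        have := hb e
        have : (0 : ℤ) ≤ t := Int.natCast_nonneg t
        linarith
      have hs : step C R z l y = (y, ⟨_, hh⟩) := by
        unfold step; rw [dif_pos hh]
      rw [cover_pow C R g hg ρ v t _ (by rw [hs]; exact hb), hs]
      simp only [pot_add_incr C g hg]
      congr 1
      abel

theorem box_ratio (D t : ℕ) :
    ((2 * (2 * t * D + t) + 1 : ℕ) : ℝ) ^ D ≤ 2 * ((2 * (2 * t * D) + 1 : ℕ) : ℝ) ^ D := by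
  set b : ℝ := ((2 * (2 * t * D + t) + 1 : ℕ) : ℝ) with hb
  have hb0 : 0 < b := by rw [hb]; positivity
  have hb1 : b = 4 * t * D + 2 * t + 1 := by rw [hb]; push_cast; ring
  have h1 : ((2 * (2 * t * D) + 1 : ℕ) : ℝ) = b * (1 + (-(2 * t / b))) := by
    field_simp
    rw [hb1]; push_cast; ring
  have hD : (0 : ℝ) ≤ D := Nat.cast_nonneg D
  have ht : (0 : ℝ) ≤ t := Nat.cast_nonneg t
  have h2 : (2 * t / b : ℝ) ≤ 1 := by
    rw [div_le_one hb0, hb1]
    nlinarith [mul_nonneg ht hD]
  have h3 := one_add_mul_le_pow (a := -(2 * t / b)) (by linarith) D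
  have h4 : (D : ℝ) * (2 * t / b) ≤ 1 / 2 := by
    rw [mul_div_assoc', div_le_iff₀ hb0, hb1]
    nlinarith
  rw [h1, mul_pow]
  have h5 : 0 < b ^ D := pow_pos hb0 D
  nlinarith

theorem MT.cocycle {p A : ℝ} (hp : 0 < p) (hA : 0 ≤ A) (h : MT X p A) :
    Cocycle (2 * A) (fun x : X => ‖x‖ ^ p) := by
  classical
  intro S L _ _ C g hg t ht
  set D := Fintype.card (S × L × S) with hD
  set R := 2 * t * D + t with hR
  set B := box (S × L × S) R with hB
  set c : ℝ := (B.card : ℝ) with hc
  have hcard : c = ((2 * R + 1 : ℕ) : ℝ) ^ D := by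
    rw [hc, hB, card_box]; push_cast; rfl
  have hc0 : 0 < c := by rw [hcard]; positivity
  have hsum : ∀ F : S → ℝ, ∑ z : S × {h // h ∈ B}, F z.1 = c * ∑ x, F x := by
    intro F
    rw [Fintype.sum_prod_type]
    simp [hc, Finset.mul_sum]
  have key := h (S × {h // h ∈ B}) (fun z => C.π z.1 / c) (coverP C R)
    (fun z => div_nonneg (C.π_nonneg _) hc0.le)
    (by rw [hsum (fun x => C.π x / c), ← Finset.sum_div, C.π_sum]; field_simp)
    (fun z z' => Finset.sum_nonneg fun l _ => Finset.sum_nonneg fun y _ => by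
      split_ifs
      · exact C.p_nonneg _ _ _
      · exact le_rfl)
    (fun z => by simpa [C.p_sum] using coverP_sum C R z (fun _ => 1))
    (fun z z' => by
      have := coverP_rev C R z z'
      rw [div_mul_eq_mul_div, div_mul_eq_mul_div, this])
    (fun z => pot g z.2.1) t ht
  have hP0 : ∀ z z', 0 ≤ (coverP C R ^ t) z z' := by
    refine Matrix.pow_apply_nonneg ?_ t
    intro z z'
    exact Finset.sum_nonneg fun l _ => Finset.sum_nonneg fun y _ => by
      split_ifs
      · exact C.p_nonneg _ _ _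
      · exact le_rfl
  -- upper bound for the one-step quantity
  have hup : ∑ z : S × {h // h ∈ B}, ∑ z', C.π z.1 / c * coverP C R z z' *
      ‖pot g z'.2.1 - pot g z.2.1‖ ^ p ≤
      ∑ x, ∑ l, ∑ y, C.π x * C.p x l y * ‖g x l y‖ ^ p := by
    have h1 : ∀ z : S × {h // h ∈ B}, ∑ z', C.π z.1 / c * coverP C R z z' *
        ‖pot g z'.2.1 - pot g z.2.1‖ ^ p ≤
        (∑ l, ∑ y, C.π z.1 * C.p z.1 l y * ‖g z.1 l y‖ ^ p) / c := by
      intro z
      have := coverP_sum C R z (fun z' => ‖pot g z'.2.1 - pot g z.2.1‖ ^ p)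
      calc _ = C.π z.1 / c * ∑ z', coverP C R z z' * ‖pot g z'.2.1 - pot g z.2.1‖ ^ p := by
            rw [Finset.mul_sum]
            exact Finset.sum_congr rfl fun z' _ => by ring
        _ ≤ C.π z.1 / c * ∑ l, ∑ y, C.p z.1 l y * ‖g z.1 l y‖ ^ p := by
            rw [this]
            refine mul_le_mul_of_nonneg_left (Finset.sum_le_sum fun l _ =>
              Finset.sum_le_sum fun y _ => mul_le_mul_of_nonneg_left ?_ (C.p_nonneg _ _ _))
              (div_nonneg (C.π_nonneg _) hc0.le)
            unfold step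
            split_ifs with hh
            · simp only [pot_add_incr C g hg, add_sub_cancel_left, le_refl]
            · simp only [sub_self, norm_zero, Real.zero_rpow hp.ne']
              positivity
        _ = _ := by
            simp only [Finset.mul_sum, Finset.sum_div]
            refine Finset.sum_congr rfl fun l _ => Finset.sum_congr rfl fun y _ => by ring
    refine (Finset.sum_le_sum fun z _ => h1 z).trans ?_
    rw [hsum (fun x => (∑ l, ∑ y, C.π x * C.p x l y * ‖g x l y‖ ^ p) / c), ← Finset.sum_div]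
    apply le_of_eq
    field_simp
  -- lower bound for the t-step quantity
  set B' := box (S × L × S) (2 * t * D) with hB'
  have hsub : B' ⊆ B := by
    intro h hh
    rw [hB', mem_box] at hh
    rw [hB, mem_box]
    intro e
    have := hh e
    rw [hR]; push_cast at this ⊢
    have : (0 : ℤ) ≤ t := Int.natCast_nonneg t
    linarith
  have hW0 : ∀ x, 0 ≤ W C g (fun x : X => ‖x‖ ^ p) t x 0 :=
    fun x => W_nonneg C g _ (fun v => by positivity) t x 0
  have hlow : (B'.card : ℝ) / c * ∑ x, C.π x * W C g (fun x : X => ‖x‖ ^ p) t x 0 ≤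
      ∑ z : S × {h // h ∈ B}, ∑ z', C.π z.1 / c * (coverP C R ^ t) z z' *
      ‖pot g z'.2.1 - pot g z.2.1‖ ^ p := by
    have h1 : ∀ z : S × {h // h ∈ B},
        (if z.2.1 ∈ B' then C.π z.1 / c * W C g (fun x : X => ‖x‖ ^ p) t z.1 0 else 0) ≤
        ∑ z', C.π z.1 / c * (coverP C R ^ t) z z' * ‖pot g z'.2.1 - pot g z.2.1‖ ^ p := by
      intro z
      split_ifs with hz
      · have := cover_pow C R g hg (fun x : X => ‖x‖ ^ p) (pot g z.2.1) t z (by
          intro e
          rw [hB', mem_box] at hz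
          have := hz e
          have hR' : (R : ℤ) = ((2 * t * D : ℕ) : ℤ) + t := by rw [hR]; push_cast; ring
          linarith)
        rw [sub_self] at this
        rw [← this, Finset.mul_sum]
        exact le_of_eq (Finset.sum_congr rfl fun z' _ => by ring)
      · exact Finset.sum_nonneg fun z' _ => mul_nonneg (mul_nonneg
          (div_nonneg (C.π_nonneg _) hc0.le) (hP0 _ _)) (by positivity)
    refine le_trans (le_of_eq ?_) (Finset.sum_le_sum fun z _ => h1 z)
    rw [Fintype.sum_prod_type, Finset.mul_sum]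
    refine Finset.sum_congr rfl fun x _ => ?_
    simp only
    rw [Finset.sum_coe_sort B (fun h => if h ∈ B' then
      C.π x / c * W C g (fun x : X => ‖x‖ ^ p) t x 0 else 0), Finset.sum_ite_mem,
      Finset.inter_eq_right.2 hsub, Finset.sum_const, nsmul_eq_mul]
    ring
  have hratio : (1 / 2 : ℝ) ≤ (B'.card : ℝ) / c := by
    rw [le_div_iff₀ hc0, hcard, hB', card_box, hR]
    have := box_ratio D t
    push_cast at this ⊢
    rw [← hD]
    linarith
  have hS0 : 0 ≤ ∑ x, C.π x * W C g (fun x : X => ‖x‖ ^ p) t x 0 :=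
    Finset.sum_nonneg fun x _ => mul_nonneg (C.π_nonneg x) (hW0 x)
  have hAt : 0 ≤ A * t := mul_nonneg hA (Nat.cast_nonneg t)
  have h3 := hlow.trans (key.trans (mul_le_mul_of_nonneg_left hup hAt))
  have h4 := mul_le_mul_of_nonneg_right hratio hS0
  linarith

end cover

theorem HasMarkovType.cocycle {X : Type*} [NormedAddCommGroup X] [NormedSpace ℝ X] {p : ℝ}
    (hp : 0 < p) (h : HasMarkovType X p) :
    ∃ A : ℝ, 0 ≤ A ∧ Cocycle A (fun x : X => ‖x‖ ^ p) := by
  obtain ⟨A, hA, h⟩ := h.mt
  exact ⟨2 * A, by positivity, h.cocycle hp hA⟩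

end Vale.Agent.P125
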