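import Vale.Agent.P125.Tri

open Filter Topology Finset

namespace Vale.Agent.P125

variable {Z : Type*} [NormedAddCommGroup Z] [NormedSpace ℝ Z]

/-- `Reach ε r j x c`: a finite martingale starts at `x`, makes `j` big symmetric jumps on every
path, and ends with `r`-th moment `c`. -/
inductive Reach (ε r : ℝ) : ℕ → Z → ℝ → Prop
  | leaf (x : Z) : Reach ε r 0 x (‖x‖ ^ r)
  | mix (j : ℕ) (a b : Z) (ca cb s t : ℝ) (hs : 0 ≤ s) (ht : 0 ≤ t) (hst : s + t = 1) :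
      Reach ε r j a ca → Reach ε r j b cb → Reach ε r j (s • a + t • b) (s * ca + t * cb)
  | big (j : ℕ) (a b : Z) (ca cb : ℝ)
      (h : 2 * ε * ‖(1 / 2 : ℝ) • a + (1 / 2 : ℝ) • b‖ ≤ ‖a - b‖) :
      Reach ε r j a ca → Reach ε r j b cb →
        Reach ε r (j + 1) ((1 / 2 : ℝ) • a + (1 / 2 : ℝ) • b) (1 / 2 * ca + 1 / 2 * cb)

theorem convexOn_norm_rpow {r : ℝ} (hr : 1 ≤ r) : ConvexOn ℝ Set.univ (fun x : Z => ‖x‖ ^ r) := by
  refine ⟨convex_univ, fun x _ y _ s t hs ht hst => ?_⟩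
  have h1 : ‖s • x + t • y‖ ≤ s * ‖x‖ + t * ‖y‖ := by
    refine (norm_add_le _ _).trans (le_of_eq ?_)
    rw [norm_smul, norm_smul, Real.norm_of_nonneg hs, Real.norm_of_nonneg ht]
  have h2 := (convexOn_rpow hr).2 (Set.mem_Ici.2 (norm_nonneg x)) (Set.mem_Ici.2 (norm_nonneg y))
    hs ht hst
  exact (Real.rpow_le_rpow (norm_nonneg _) h1 (by linarith)).trans h2

theorem norm_rpow_smul (r c : ℝ) (x : Z) : ‖c • x‖ ^ r = |c| ^ r * ‖x‖ ^ r := by
  rw [norm_smul, Real.norm_eq_abs, Real.mul_rpow (abs_nonneg c) (norm_nonneg x)]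

theorem Reach.lower {ε r : ℝ} (hr : 1 ≤ r) {j : ℕ} {x : Z} {c : ℝ} (h : Reach ε r j x c) :
    ‖x‖ ^ r ≤ c := by
  induction h with
  | leaf x => exact le_rfl
  | mix j a b ca cb s t hs ht hst _ _ iha ihb =>
    have := (convexOn_norm_rpow hr).2 (Set.mem_univ a) (Set.mem_univ b) hs ht hst
    simp only [smul_eq_mul] at this
    have := mul_le_mul_of_nonneg_left iha hs
    have := mul_le_mul_of_nonneg_left ihb ht
    linarith
  | big j a b ca cb _ _ _ iha ihb =>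
    have := (convexOn_norm_rpow hr).2 (Set.mem_univ a) (Set.mem_univ b)
      (by norm_num : (0 : ℝ) ≤ 1 / 2) (by norm_num : (0 : ℝ) ≤ 1 / 2) (by norm_num)
    simp only [smul_eq_mul] at this
    linarith

theorem Reach.smul {ε r : ℝ} {j : ℕ} {x : Z} {c : ℝ} (h : Reach ε r j x c) (u : ℝ) :
    Reach ε r j (u • x) (|u| ^ r * c) := by
  induction h with
  | leaf x => rw [← norm_rpow_smul]; exact Reach.leaf _
  | mix j a b ca cb s t hs ht hst _ _ iha ihb =>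
    have := Reach.mix j _ _ _ _ s t hs ht hst iha ihb
    convert this using 1
    · simp only [smul_add, smul_smul, mul_comm]
    · ring
  | big j a b ca cb h _ _ iha ihb =>
    have e : (1 / 2 : ℝ) • u • a + (1 / 2 : ℝ) • u • b =
        u • ((1 / 2 : ℝ) • a + (1 / 2 : ℝ) • b) := by
      simp only [smul_add, smul_smul, mul_comm]
    have := Reach.big j _ _ _ _ (by
      rw [e, ← smul_sub, norm_smul, norm_smul]
      have := mul_le_mul_of_nonneg_left h (norm_nonneg u)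
      linarith) iha ihb
    rw [e] at this
    convert this using 1
    ring

theorem Reach.exists {ε r : ℝ} (hε : 0 ≤ ε) (hr : 0 ≤ r) : ∀ (j : ℕ) (x : Z),
    ∃ c, Reach ε r j x c ∧ c ≤ ((1 + ε) ^ r) ^ j * ‖x‖ ^ r
  | 0, x => ⟨_, Reach.leaf x, by simp⟩
  | j + 1, x => by
      obtain ⟨c, hc, hc'⟩ := Reach.exists hε hr j x
      have e : (1 / 2 : ℝ) • (1 + ε) • x + (1 / 2 : ℝ) • (1 - ε) • x = x := by
        rw [smul_smul, smul_smul, ← add_smul]
        rw [show 1 / 2 * (1 + ε) + 1 / 2 * (1 - ε) = 1 by ring, one_smul]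
      have := Reach.big j _ _ _ _ (by
        rw [e, ← sub_smul, norm_smul, show 1 + ε - (1 - ε) = 2 * ε by ring,
          Real.norm_of_nonneg (by linarith)]) (hc.smul (1 + ε)) (hc.smul (1 - ε))
      rw [e] at this
      refine ⟨_, this, ?_⟩
      have h1 : |1 - ε| ^ r ≤ (1 + ε) ^ r :=
        Real.rpow_le_rpow (abs_nonneg _) (abs_le.2 ⟨by linarith, by linarith⟩) hr
      rw [abs_of_nonneg (by linarith : 0 ≤ 1 + ε)]
      have h2 : 0 ≤ |1 - ε| ^ r := by positivity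
      have h3 : 0 ≤ (1 + ε) ^ r := by positivity
      have h4 : 0 ≤ ((1 + ε) ^ r) ^ j * ‖x‖ ^ r := by positivity
      have h5 := mul_le_mul_of_nonneg_left hc' h2
      have h6 := mul_le_mul_of_nonneg_left hc' h3
      have h7 := mul_le_mul_of_nonneg_right h1 h4
      rw [pow_succ]
      nlinarith

/-- The least moment for `j` big jumps. -/
noncomputable def phi (ε r : ℝ) (j : ℕ) (x : Z) : ℝ := sInf {c | Reach ε r j x c}

section phi
variable {ε r : ℝ} (hε : 0 ≤ ε) (hr : 1 ≤ r)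
include hr

theorem phi_le {j : ℕ} {x : Z} {c : ℝ} (h : Reach ε r j x c) : phi ε r j x ≤ c :=
  csInf_le ⟨_, fun _ hc => Reach.lower hr hc⟩ h

include hε

theorem phi_approx (j : ℕ) (x : Z) {η : ℝ} (hη : 0 < η) :
    ∃ c, Reach ε r j x c ∧ c ≤ phi ε r j x + η := by
  obtain ⟨c, hc, _⟩ := Reach.exists hε (by linarith : 0 ≤ r) j x
  obtain ⟨c', h1, h2⟩ := exists_lt_of_csInf_lt (s := {c | Reach ε r j x c}) ⟨c, hc⟩
    (lt_add_of_pos_right _ hη)
  exact ⟨c', h1, h2.le⟩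

theorem le_phi {j : ℕ} {x : Z} {a : ℝ} (h : ∀ c, Reach ε r j x c → a ≤ c) : a ≤ phi ε r j x := by
  obtain ⟨c, hc, _⟩ := Reach.exists hε (by linarith : 0 ≤ r) j x
  exact le_csInf ⟨c, hc⟩ h

theorem phi_lower (j : ℕ) (x : Z) : ‖x‖ ^ r ≤ phi ε r j x := le_phi hε hr fun _ hc => hc.lower hr

theorem phi_upper (j : ℕ) (x : Z) : phi ε r j x ≤ ((1 + ε) ^ r) ^ j * ‖x‖ ^ r := by
  obtain ⟨c, hc, h⟩ := Reach.exists hε (by linarith : 0 ≤ r) j x
  exact (phi_le hr hc).trans h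

theorem phi_conv (j : ℕ) (a b : Z) {s t : ℝ} (hs : 0 ≤ s) (ht : 0 ≤ t) (hst : s + t = 1) :
    phi ε r j (s • a + t • b) ≤ s * phi ε r j a + t * phi ε r j b := by
  refine le_of_forall_pos_le_add fun η hη => ?_
  obtain ⟨ca, h1, h2⟩ := phi_approx hε hr j a hη
  obtain ⟨cb, h3, h4⟩ := phi_approx hε hr j b hη
  have := phi_le hr (Reach.mix j a b ca cb s t hs ht hst h1 h3)
  have a1 := mul_le_mul_of_nonneg_left h2 hs
  have a2 := mul_le_mul_of_nonneg_left h4 ht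
  have a3 : s * η + t * η = η := by rw [← add_mul, hst, one_mul]
  linarith

theorem phi_big (j : ℕ) (a b : Z) (h : 2 * ε * ‖(1 / 2 : ℝ) • a + (1 / 2 : ℝ) • b‖ ≤ ‖a - b‖) :
    phi ε r (j + 1) ((1 / 2 : ℝ) • a + (1 / 2 : ℝ) • b) ≤
      1 / 2 * phi ε r j a + 1 / 2 * phi ε r j b := by
  refine le_of_forall_pos_le_add fun η hη => ?_
  obtain ⟨ca, h1, h2⟩ := phi_approx hε hr j a hη
  obtain ⟨cb, h3, h4⟩ := phi_approx hε hr j b hη
  have := phi_le hr (Reach.big j a b ca cb h h1 h3)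
  linarith

theorem phi_smul_le (j : ℕ) (u : ℝ) (x : Z) : phi ε r j (u • x) ≤ |u| ^ r * phi ε r j x := by
  refine le_of_forall_pos_le_add fun η hη => ?_
  have hc : 0 ≤ |u| ^ r := by positivity
  obtain ⟨c, h1, h2⟩ := phi_approx hε hr j x (show 0 < η / (|u| ^ r + 1) by positivity)
  have h3 := phi_le hr (h1.smul u)
  have h4 := mul_le_mul_of_nonneg_left h2 hc
  have h5 : |u| ^ r * (η / (|u| ^ r + 1)) ≤ η := by
    rw [mul_div_assoc', div_le_iff₀ (by positivity)]; nlinarith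
  linarith

/-- The gain function at one scale. -/
theorem exists_gain (n : ℕ) (H : ∀ (x : Z) c, Reach ε r n x c → 2 * ‖x‖ ^ r ≤ c) {κ : ℝ}
    (hκ : 0 < κ) : ∃ (θ : Z → ℝ) (w : ℝ), 0 < w ∧ (∀ x, 0 ≤ θ x) ∧ (∀ x, θ x ≤ κ * ‖x‖ ^ r) ∧
      (∀ (u : ℝ) x, θ (u • x) ≤ |u| ^ r * θ x) ∧
      (∀ a b (s t : ℝ), 0 ≤ s → 0 ≤ t → s + t = 1 → θ (s • a + t • b) ≤ s * θ a + t * θ b) ∧
      ∀ a b, 2 * ε * ‖(1 / 2 : ℝ) • a + (1 / 2 : ℝ) • b‖ ≤ ‖a - b‖ →
        θ ((1 / 2 : ℝ) • a + (1 / 2 : ℝ) • b) + w * ‖(1 / 2 : ℝ) • a + (1 / 2 : ℝ) • b‖ ^ r ≤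
          1 / 2 * θ a + 1 / 2 * θ b := by
  set B : ℝ := ∑ j ∈ Finset.range n, ((1 + ε) ^ r) ^ j with hB
  have hB0 : 0 ≤ B := Finset.sum_nonneg fun j _ => by positivity
  have hw : 0 < κ / (B + 1) := by positivity
  refine ⟨fun x => κ / (B + 1) * ∑ j ∈ Finset.range n, phi ε r j x, κ / (B + 1), hw, ?_, ?_, ?_,
    ?_, ?_⟩
  · intro x
    exact mul_nonneg hw.le (Finset.sum_nonneg fun j _ =>
      le_trans (by positivity) (phi_lower hε hr j x))
  · intro x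
    have h1 : ∑ j ∈ Finset.range n, phi ε r j x ≤ B * ‖x‖ ^ r := by
      rw [hB, Finset.sum_mul]
      exact Finset.sum_le_sum fun j _ => phi_upper hε hr j x
    refine (mul_le_mul_of_nonneg_left h1 hw.le).trans ?_
    rw [← mul_assoc]
    refine mul_le_mul_of_nonneg_right ?_ (by positivity)
    rw [div_mul_eq_mul_div, div_le_iff₀ (by positivity)]
    nlinarith
  · intro u x
    have h1 : ∑ j ∈ Finset.range n, phi ε r j (u • x) ≤
        |u| ^ r * ∑ j ∈ Finset.range n, phi ε r j x := by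
      rw [Finset.mul_sum]
      exact Finset.sum_le_sum fun j _ => phi_smul_le hε hr j u x
    have := mul_le_mul_of_nonneg_left h1 hw.le
    simp only
    linarith
  · intro a b s t hs ht hst
    have h1 : ∑ j ∈ Finset.range n, phi ε r j (s • a + t • b) ≤
        s * ∑ j ∈ Finset.range n, phi ε r j a + t * ∑ j ∈ Finset.range n, phi ε r j b := by
      rw [Finset.mul_sum, Finset.mul_sum, ← Finset.sum_add_distrib]
      exact Finset.sum_le_sum fun j _ => phi_conv hε hr j a b hs ht hst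
    have := mul_le_mul_of_nonneg_left h1 hw.le
    simp only
    linarith
  · intro a b h
    set x := (1 / 2 : ℝ) • a + (1 / 2 : ℝ) • b with hx
    have h1 : ∑ j ∈ Finset.range n, phi ε r (j + 1) x ≤
        1 / 2 * ∑ j ∈ Finset.range n, phi ε r j a + 1 / 2 * ∑ j ∈ Finset.range n, phi ε r j b := by
      rw [Finset.mul_sum, Finset.mul_sum, ← Finset.sum_add_distrib]
      exact Finset.sum_le_sum fun j _ => phi_big hε hr j a b h
    have h2 := Finset.sum_range_succ' (fun j => phi ε r j x) n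
    have h3 := Finset.sum_range_succ (fun j => phi ε r j x) n
    have h4 : phi ε r 0 x ≤ ‖x‖ ^ r := phi_le hr (Reach.leaf x)
    have h5 : 2 * ‖x‖ ^ r ≤ phi ε r n x := le_phi hε hr (H x)
    have h6 : ∑ j ∈ Finset.range n, phi ε r j x + ‖x‖ ^ r ≤
        1 / 2 * ∑ j ∈ Finset.range n, phi ε r j a + 1 / 2 * ∑ j ∈ Finset.range n, phi ε r j b := by
      linarith
    have := mul_le_mul_of_nonneg_left h6 hw.le
    simp only
    linarith

end phi

/-- Enflo-type renorming. -/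
theorem exists_uc_norm {r : ℝ} (hr : 1 ≤ r)
    (H : ∀ ε > 0, ∃ n, ∀ (x : Z) c, Reach ε r n x c → 2 * ‖x‖ ^ r ≤ c) :
    ∃ N : Seminorm ℝ Z, (∀ x, ‖x‖ ≤ N x ∧ N x ≤ 3 * ‖x‖) ∧ IsUniformlyConvex N := by
  have hr0 : 0 < r := by linarith
  have h1 : ∀ k : ℕ, ∃ (θ : Z → ℝ) (w : ℝ), 0 < w ∧ (∀ x, 0 ≤ θ x) ∧
      (∀ x, θ x ≤ (1 / 2) ^ k * ‖x‖ ^ r) ∧
      (∀ (u : ℝ) x, θ (u • x) ≤ |u| ^ r * θ x) ∧
      (∀ a b (s t : ℝ), 0 ≤ s → 0 ≤ t → s + t = 1 → θ (s • a + t • b) ≤ s * θ a + t * θ b) ∧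
      ∀ a b, 2 * (1 / (k + 1)) * ‖(1 / 2 : ℝ) • a + (1 / 2 : ℝ) • b‖ ≤ ‖a - b‖ →
        θ ((1 / 2 : ℝ) • a + (1 / 2 : ℝ) • b) + w * ‖(1 / 2 : ℝ) • a + (1 / 2 : ℝ) • b‖ ^ r ≤
          1 / 2 * θ a + 1 / 2 * θ b := by
    intro k
    obtain ⟨n, hn⟩ := H (1 / (k + 1)) (by positivity)
    exact exists_gain (by positivity) hr n hn (by positivity)
  choose θ w hw h0 hup hsm hcv hbig using h1
  have hsum : ∀ x, Summable fun k => θ k x := fun x =>
    Summable.of_nonneg_of_le (fun k => h0 k x) (fun k => hup k x)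
      (summable_geometric_two.mul_right _)
  let Φ : Z → ℝ := fun x => ‖x‖ ^ r + ∑' k, θ k x
  have hΦl : ∀ x, ‖x‖ ^ r ≤ Φ x := fun x =>
    le_add_of_nonneg_right (tsum_nonneg fun k => h0 k x)
  have hΦ0 : ∀ x, 0 ≤ Φ x := fun x => le_trans (by positivity) (hΦl x)
  have hΦu : ∀ x, Φ x ≤ 3 * ‖x‖ ^ r := by
    intro x
    have := (hsum x).tsum_le_tsum (fun k => hup k x) (summable_geometric_two.mul_right _)
    rw [tsum_mul_right, tsum_geometric_two] at this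
    simp only [Φ]
    linarith
  have hΦs : ∀ (u : ℝ) x, Φ (u • x) ≤ |u| ^ r * Φ x := by
    intro u x
    have := (hsum (u • x)).tsum_le_tsum (fun k => hsm k u x) ((hsum x).mul_left _)
    rw [tsum_mul_left] at this
    simp only [Φ, norm_rpow_smul]
    linarith
  have hΦh : ∀ (u : ℝ) x, Φ (u • x) = |u| ^ r * Φ x := by
    intro c x
    refine le_antisymm (hΦs c x) ?_
    by_cases hc : c = 0
    · rw [hc, abs_zero, Real.zero_rpow hr0.ne', zero_mul]; exact hΦ0 _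
    have h1 := hΦs c⁻¹ (c • x)
    rw [smul_smul, inv_mul_cancel₀ hc, one_smul] at h1
    have h2 := mul_le_mul_of_nonneg_left h1 (show 0 ≤ |c| ^ r by positivity)
    rwa [← mul_assoc, ← Real.mul_rpow (abs_nonneg _) (abs_nonneg _), ← abs_mul,
      mul_inv_cancel₀ hc, abs_one, Real.one_rpow, one_mul] at h2
  have hΦc : ConvexOn ℝ Set.univ Φ := by
    refine ⟨convex_univ, fun a _ b _ s t hs ht hst => ?_⟩
    have := (hsum (s • a + t • b)).tsum_le_tsum (fun k => hcv k a b s t hs ht hst)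
      (((hsum a).mul_left s).add ((hsum b).mul_left t))
    rw [((hsum a).mul_left s).tsum_add ((hsum b).mul_left t), tsum_mul_left, tsum_mul_left]
      at this
    have h2 := (convexOn_norm_rpow hr).2 (Set.mem_univ a) (Set.mem_univ b) hs ht hst
    simp only [Φ, smul_eq_mul] at h2 ⊢
    linarith
  have hΦb : ∀ (k : ℕ) a b, 2 * (1 / (k + 1)) * ‖(1 / 2 : ℝ) • a + (1 / 2 : ℝ) • b‖ ≤ ‖a - b‖ →
      Φ ((1 / 2 : ℝ) • a + (1 / 2 : ℝ) • b) + w k * ‖(1 / 2 : ℝ) • a + (1 / 2 : ℝ) • b‖ ^ r ≤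
        1 / 2 * Φ a + 1 / 2 * Φ b := by
    intro k a b h
    set x := (1 / 2 : ℝ) • a + (1 / 2 : ℝ) • b with hx
    have hs2 := ((hsum a).mul_left (1 / 2)).add ((hsum b).mul_left (1 / 2))
    have h1 := (hs2.sub (hsum x)).le_tsum k (fun j _ => sub_nonneg.2
      (hcv j a b (1 / 2) (1 / 2) (by norm_num) (by norm_num) (by norm_num)))
    rw [hs2.tsum_sub (hsum x), ((hsum a).mul_left _).tsum_add ((hsum b).mul_left _),
      tsum_mul_left, tsum_mul_left] at h1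
    have h2 := (convexOn_norm_rpow hr).2 (Set.mem_univ a) (Set.mem_univ b)
      (by norm_num : (0 : ℝ) ≤ 1 / 2) (by norm_num : (0 : ℝ) ≤ 1 / 2) (by norm_num)
    have h3 := hbig k a b h
    simp only [Φ, smul_eq_mul, ← hx] at h2 h3 ⊢
    linarith
  have hpow : ∀ x, (Φ x ^ r⁻¹) ^ r = Φ x := fun x => Real.rpow_inv_rpow (hΦ0 x) hr0.ne'
  have hle : ∀ x {α : ℝ}, 0 ≤ α → (Φ x ^ r⁻¹ ≤ α ↔ Φ x ≤ α ^ r) := fun x α hα =>
    Real.rpow_inv_le_iff_of_pos (hΦ0 x) hα hr0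
  have hlow : ∀ x, ‖x‖ ≤ Φ x ^ r⁻¹ := fun x =>
    (Real.le_rpow_inv_iff_of_pos (norm_nonneg x) (hΦ0 x) hr0).2 (hΦl x)
  have hBd : ∀ x, Bd Φ r 1 (Φ x ^ r⁻¹) x := fun x =>
    ⟨Real.rpow_nonneg (hΦ0 x) _, fun h => norm_le_zero_iff.1 (h ▸ hlow x),
      by rw [hpow, mul_one]⟩
  let N : Seminorm ℝ Z := Seminorm.of (fun x => Φ x ^ r⁻¹)
    (fun x y => by
      have := (hBd x).add hΦc hΦh (hBd y)
      exact (hle _ this.1).2 (by simpa using this.2.2))
    (fun c x => by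
      rw [hΦh, Real.mul_rpow (by positivity) (hΦ0 x), Real.rpow_rpow_inv (abs_nonneg c) hr0.ne',
        Real.norm_eq_abs])
  have hN : ∀ x, N x = Φ x ^ r⁻¹ := fun x => rfl
  have hNu : ∀ x, N x ≤ 3 * ‖x‖ := by
    intro x
    rw [hN, hle x (by positivity), Real.mul_rpow (by norm_num) (norm_nonneg x)]
    refine (hΦu x).trans (mul_le_mul_of_nonneg_right ?_ (by positivity))
    calc (3 : ℝ) = 3 ^ (1 : ℝ) := (Real.rpow_one _).symm
      _ ≤ 3 ^ r := Real.rpow_le_rpow_of_exponent_le (by norm_num) hr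
  refine ⟨N, fun x => ⟨hlow x, hNu x⟩, fun ε hε _ => ?_⟩
  obtain ⟨k, hk⟩ := exists_nat_one_div_lt (show 0 < ε / 6 by positivity)
  have hq0 : 0 < 1 / (1 + w k / 3) := by have := hw k; positivity
  have hq1 : 1 / (1 + w k / 3) < 1 := by
    have := hw k
    rw [div_lt_one (by positivity)]; linarith
  have hq2 : (1 / (1 + w k / 3)) ^ r⁻¹ < 1 := Real.rpow_lt_one hq0.le hq1 (inv_pos.2 hr0)
  refine ⟨1 - (1 / (1 + w k / 3)) ^ r⁻¹, by linarith, fun a b ha hb hab => ?_⟩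
  rw [sub_sub_cancel, smul_add]
  set x := (1 / 2 : ℝ) • a + (1 / 2 : ℝ) • b with hx
  have hxa : ‖a‖ ≤ 1 := (hlow a).trans ha
  have hxb : ‖b‖ ≤ 1 := (hlow b).trans hb
  have hx1 : ‖x‖ ≤ 1 := by
    refine (norm_add_le _ _).trans ?_
    rw [norm_smul, norm_smul, Real.norm_of_nonneg (by norm_num)]
    linarith
  have h1 := hΦb k a b (by
    have := hab.trans (hNu (a - b))
    have h2 : (0 : ℝ) < 1 / (k + 1) := by positivity
    have h3 := mul_le_mul_of_nonneg_left hx1 h2.le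
    rw [← hx]
    linarith)
  rw [← hx] at h1
  have ha' : Φ a ≤ 1 := by simpa using (hle a zero_le_one).1 ha
  have hb' : Φ b ≤ 1 := by simpa using (hle b zero_le_one).1 hb
  have h2 : Φ x ≤ 1 / (1 + w k / 3) := by
    have := hw k
    rw [le_div_iff₀ (by positivity)]
    have := mul_le_mul_of_nonneg_left (hΦu x) this.le
    nlinarith
  rw [hN]
  exact Real.rpow_le_rpow (hΦ0 x) h2 (inv_pos.2 hr0).le

end Vale.Agent.P125
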