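import Vale.Agent.P125.Enflo
import Vale.Agent.P125.Cover

open Filter Topology Finset

namespace Vale.Agent.P125

variable {X : Type*} [NormedAddCommGroup X] [NormedSpace ℝ X]

/-- The weighted `p`-th moment. -/
noncomputable def mom {Ω : Type} [Fintype Ω] (p : ℝ) (w : Ω → ℝ) (V : Ω → X) : ℝ :=
  ∑ ω, w ω * ‖V ω‖ ^ p

theorem mom_nonneg {Ω : Type} [Fintype Ω] (p : ℝ) {w : Ω → ℝ} (hw : ∀ ω, 0 ≤ w ω) (V : Ω → X) :
    0 ≤ mom p w V := Finset.sum_nonneg fun ω _ => mul_nonneg (hw ω) (by positivity)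

theorem mom_smul {Ω : Type} [Fintype Ω] (p : ℝ) (w : Ω → ℝ) (c : ℝ) (V : Ω → X) :
    mom p w (c • V) = |c| ^ p * mom p w V := by
  simp only [mom, Pi.smul_apply, norm_rpow_smul, Finset.mul_sum]
  exact Finset.sum_congr rfl fun ω _ => by ring

theorem mom_conv {Ω : Type} [Fintype Ω] {p : ℝ} (hp : 1 ≤ p) {w : Ω → ℝ} (hw : ∀ ω, 0 ≤ w ω) :
    ConvexOn ℝ Set.univ (mom p w : (Ω → X) → ℝ) := by
  refine ⟨convex_univ, fun a _ b _ s t hs ht hst => ?_⟩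
  simp only [mom, smul_eq_mul, Finset.mul_sum, ← Finset.sum_add_distrib]
  refine Finset.sum_le_sum fun ω _ => ?_
  have := (convexOn_norm_rpow hp).2 (Set.mem_univ (a ω)) (Set.mem_univ (b ω)) hs ht hst
  have := mul_le_mul_of_nonneg_left this (hw ω)
  simp only [smul_eq_mul, Pi.add_apply, Pi.smul_apply] at this ⊢
  linarith

theorem mom_cocycle {Ω : Type} [Fintype Ω] {p A : ℝ} (h : Cocycle A (fun x : X => ‖x‖ ^ p))
    {w : Ω → ℝ} (hw : ∀ ω, 0 ≤ w ω) : Cocycle A (mom p w : (Ω → X) → ℝ) :=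
  Cocycle.sum w hw (ρ := fun ω (V : Ω → X) => ‖V ω‖ ^ p)
    fun ω => h.comp (Pi.evalAddMonoidHom (fun _ : Ω => X) ω)

theorem norm_mean_le {Ω : Type} [Fintype Ω] {p : ℝ} (hp : 1 ≤ p) {w : Ω → ℝ} (hw : ∀ ω, 0 ≤ w ω)
    (hw1 : ∑ ω, w ω = 1) (V : Ω → X) : ‖∑ ω, w ω • V ω‖ ^ p ≤ mom p w V :=
  (convexOn_norm_rpow hp).map_sum_le (fun ω _ => hw ω) hw1 (fun _ _ => Set.mem_univ _)

/-- Mixed weights. -/
def mixW {Ω Ω' : Type} (s t : ℝ) (w : Ω → ℝ) (w' : Ω' → ℝ) : Ω ⊕ Ω' → ℝ :=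
  Sum.elim (fun ω => s * w ω) (fun ω => t * w' ω)

theorem mixW_nonneg {Ω Ω' : Type} {s t : ℝ} {w : Ω → ℝ} {w' : Ω' → ℝ} (hs : 0 ≤ s) (ht : 0 ≤ t)
    (hw : ∀ ω, 0 ≤ w ω) (hw' : ∀ ω, 0 ≤ w' ω) : ∀ ω, 0 ≤ mixW s t w w' ω
  | Sum.inl ω => mul_nonneg hs (hw ω)
  | Sum.inr ω => mul_nonneg ht (hw' ω)

theorem mixW_sum {Ω Ω' : Type} [Fintype Ω] [Fintype Ω'] (s t : ℝ) (w : Ω → ℝ) (w' : Ω' → ℝ)
    (F : Ω ⊕ Ω' → ℝ) : ∑ ω, mixW s t w w' ω * F ω =
      s * ∑ ω, w ω * F (Sum.inl ω) + t * ∑ ω, w' ω * F (Sum.inr ω) := by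
  simp only [Fintype.sum_sum_type, mixW, Sum.elim_inl, Sum.elim_inr, Finset.mul_sum, mul_assoc]

theorem mixW_sum_smul {Y : Type*} [AddCommMonoid Y] [Module ℝ Y] {Ω Ω' : Type} [Fintype Ω]
    [Fintype Ω'] (s t : ℝ) (w : Ω → ℝ) (w' : Ω' → ℝ)
    (F : Ω ⊕ Ω' → Y) : ∑ ω, mixW s t w w' ω • F ω =
      s • ∑ ω, w ω • F (Sum.inl ω) + t • ∑ ω, w' ω • F (Sum.inr ω) := by
  simp only [Fintype.sum_sum_type, mixW, Sum.elim_inl, Sum.elim_inr, Finset.smul_sum, smul_smul]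

theorem mixW_one {Ω Ω' : Type} [Fintype Ω] [Fintype Ω'] {s t : ℝ} {w : Ω → ℝ} {w' : Ω' → ℝ}
    (hst : s + t = 1) (hw : ∑ ω, w ω = 1) (hw' : ∑ ω, w' ω = 1) : ∑ ω, mixW s t w w' ω = 1 := by
  have := mixW_sum s t w w' (fun _ => 1)
  simpa [hw, hw', hst] using this

theorem mom_mix {Ω Ω' : Type} [Fintype Ω] [Fintype Ω'] (p s t : ℝ) (w : Ω → ℝ) (w' : Ω' → ℝ)
    (V : Ω ⊕ Ω' → X) : mom p (mixW s t w w') V =
      s * mom p w (fun ω => V (Sum.inl ω)) + t * mom p w' (fun ω => V (Sum.inr ω)) :=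
  mixW_sum s t w w' _

/-- Mixed constraints. -/
def mixC {Ω Ω' : Type} (C : Submodule ℝ ((Ω → X) × ℝ)) (C' : Submodule ℝ ((Ω' → X) × ℝ)) :
    Submodule ℝ ((Ω ⊕ Ω' → X) × ℝ) where
  carrier := {z | (fun ω => z.1 (Sum.inl ω), z.2) ∈ C ∧ (fun ω => z.1 (Sum.inr ω), z.2) ∈ C'}
  add_mem' := fun hx hy => ⟨C.add_mem hx.1 hy.1, C'.add_mem hx.2 hy.2⟩
  zero_mem' := ⟨C.zero_mem, C'.zero_mem⟩
  smul_mem' := fun r _ hx => ⟨C.smul_mem r hx.1, C'.smul_mem r hx.2⟩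

/-- The constraint of the first jump. -/
def jumpC {Ω Ω' : Type} [Fintype Ω] [Fintype Ω'] (w : Ω → ℝ) (w' : Ω' → ℝ) (D : X) :
    Submodule ℝ ((Ω ⊕ Ω' → X) × ℝ) where
  carrier := {z | ∑ ω, w ω • z.1 (Sum.inl ω) - ∑ ω, w' ω • z.1 (Sum.inr ω) = z.2 • D}
  add_mem' := fun {x y} hx hy => by
    simp only [Set.mem_ofPred_eq, Prod.fst_add, Pi.add_apply, smul_add, Finset.sum_add_distrib,
      Prod.snd_add, add_smul] at hx hy ⊢
    rw [← hx, ← hy]; abel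
  zero_mem' := by simp
  smul_mem' := fun r x hx => by
    simp only [Set.mem_ofPred_eq, Prod.smul_fst, Pi.smul_apply, Prod.smul_snd, smul_eq_mul,
      mul_smul] at hx ⊢
    rw [← hx, smul_sub, Finset.smul_sum, Finset.smul_sum]
    simp only [smul_comm r]

/-- The triangular structure carried by a martingale. -/
def Prim (ε p : ℝ) (j : ℕ) (x : X) (c : ℝ) : Prop :=
  ∃ (Ω : Type) (_ : Fintype Ω) (w : Ω → ℝ) (C : ℕ → Submodule ℝ ((Ω → X) × ℝ)) (v : ℕ → Ω → X),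
    (∀ ω, 0 ≤ w ω) ∧ ∑ ω, w ω = 1 ∧
    (∀ k < j, ∀ V, (V, (1 : ℝ)) ∈ C k → ε ^ p * ‖x‖ ^ p ≤ mom p w V) ∧
    (∀ i ≤ j, mom p w (v i) ≤ c) ∧ (∀ i ≤ j, ∑ ω, w ω • v i ω = x) ∧
    (∀ i ≤ j, ∀ k < j, (v i, if k < i then (1 : ℝ) else 0) ∈ C k) ∧
    ∀ k (y : X), (fun _ => y, (0 : ℝ)) ∈ C k

theorem Reach.prim {ε p : ℝ} (hε : 0 ≤ ε) (hp : 1 ≤ p) {j : ℕ} {x : X} {c : ℝ}
    (h : Reach ε p j x c) : Prim ε p j x c := by
  induction h with
  | leaf x =>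
    refine ⟨Unit, inferInstance, fun _ => 1, fun _ => ⊤, fun _ _ => x, fun _ => zero_le_one,
      by simp, by simp, by simp [mom], by simp, by simp, by simp⟩
  | mix j a b ca cb s t hs ht hst _ _ iha ihb =>
    obtain ⟨Ω, _, w, C, v, a1, a2, a3, a4, a5, a6, a7⟩ := iha
    obtain ⟨Ω', _, w', C', v', b1, b2, b3, b4, b5, b6, b7⟩ := ihb
    refine ⟨Ω ⊕ Ω', inferInstance, mixW s t w w', fun k => mixC (C k) (C' k),
      fun i => Sum.elim (v i) (v' i), mixW_nonneg hs ht a1 b1, mixW_one hst a2 b2, ?_, ?_, ?_, ?_,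
      ?_⟩
    · intro k hk V hV
      rw [mom_mix]
      have h1 := mul_le_mul_of_nonneg_left (a3 k hk _ hV.1) hs
      have h2 := mul_le_mul_of_nonneg_left (b3 k hk _ hV.2) ht
      have h3 := (convexOn_norm_rpow hp).2 (Set.mem_univ a) (Set.mem_univ b) hs ht hst
      have h4 := mul_le_mul_of_nonneg_left h3 (show 0 ≤ ε ^ p by positivity)
      simp only [smul_eq_mul] at h4
      linarith
    · intro i hi
      rw [mom_mix]
      exact add_le_add (mul_le_mul_of_nonneg_left (a4 i hi) hs)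
        (mul_le_mul_of_nonneg_left (b4 i hi) ht)
    · intro i hi
      rw [mixW_sum_smul]
      simp only [Sum.elim_inl, Sum.elim_inr, a5 i hi, b5 i hi]
    · intro i hi k hk
      exact ⟨a6 i hi k hk, b6 i hi k hk⟩
    · intro k y
      exact ⟨a7 k y, b7 k y⟩
  | big j a b ca cb h ha hb iha ihb =>
    obtain ⟨Ω, _, w, C, v, a1, a2, a3, a4, a5, a6, a7⟩ := iha
    obtain ⟨Ω', _, w', C', v', b1, b2, b3, b4, b5, b6, b7⟩ := ihb
    have hlow := (Reach.big j a b ca cb h ha hb).lower hp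
    set x := (1 / 2 : ℝ) • a + (1 / 2 : ℝ) • b with hx
    have hh : (0 : ℝ) ≤ 1 / 2 := by norm_num
    have hw1 := mixW_one (show (1 / 2 : ℝ) + 1 / 2 = 1 by norm_num) a2 b2
    have hconst : ∀ y : X, (fun _ => y, (0 : ℝ)) ∈ jumpC w w' (a - b) := by
      intro y
      change ∑ ω, w ω • y - ∑ ω, w' ω • y = (0 : ℝ) • (a - b)
      rw [← Finset.sum_smul, ← Finset.sum_smul, a2, b2, sub_self, zero_smul]
    refine ⟨Ω ⊕ Ω', inferInstance, mixW (1 / 2) (1 / 2) w w',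
      fun k => Nat.casesOn k (jumpC w w' (a - b)) (fun k => mixC (C k) (C' k)),
      fun i => Nat.casesOn i (fun _ => x) (fun i => Sum.elim (v i) (v' i)),
      mixW_nonneg hh hh a1 b1, hw1, ?_, ?_, ?_, ?_, ?_⟩
    · rintro (_ | k) hk V hV
      · rw [mom_mix]
        have h0 : ∑ ω, w ω • V (Sum.inl ω) - ∑ ω, w' ω • V (Sum.inr ω) = (1 : ℝ) • (a - b) := hV
        have h1 := norm_mean_le hp a1 a2 (fun ω => V (Sum.inl ω))
        have h2 := norm_mean_le hp b1 b2 (fun ω => V (Sum.inr ω))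
        have h3 := (convexOn_norm_rpow hp).2 (Set.mem_univ (∑ ω, w ω • V (Sum.inl ω)))
          (Set.mem_univ (-∑ ω, w' ω • V (Sum.inr ω))) hh hh (by norm_num)
        rw [← smul_add, ← sub_eq_add_neg, h0, one_smul] at h3
        simp only [smul_eq_mul, norm_neg] at h3
        have h4 : ε ^ p * ‖x‖ ^ p ≤ ‖(1 / 2 : ℝ) • (a - b)‖ ^ p := by
          rw [← Real.mul_rpow hε (norm_nonneg x)]
          refine Real.rpow_le_rpow (by positivity) ?_ (by linarith)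
          rw [norm_smul, Real.norm_of_nonneg hh]
          linarith
        linarith
      · rw [mom_mix]
        have hk' : k < j := by omega
        have h1 := a3 k hk' _ hV.1
        have h2 := b3 k hk' _ hV.2
        have h3 := (convexOn_norm_rpow hp).2 (Set.mem_univ a) (Set.mem_univ b) hh hh (by norm_num)
        have h4 := mul_le_mul_of_nonneg_left h3 (show 0 ≤ ε ^ p by positivity)
        simp only [smul_eq_mul, ← hx] at h4
        linarith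
    · rintro (_ | i) hi
      · simp only [mom, Nat.rec_zero, ← Finset.sum_mul, hw1, one_mul]
        exact hlow
      · rw [mom_mix]
        exact add_le_add (mul_le_mul_of_nonneg_left (a4 i (by omega)) hh)
          (mul_le_mul_of_nonneg_left (b4 i (by omega)) hh)
    · rintro (_ | i) hi
      · simp only [Nat.rec_zero, ← Finset.sum_smul, hw1, one_smul]
      · rw [mixW_sum_smul]
        simp only [Sum.elim_inl, Sum.elim_inr, a5 i (by omega), b5 i (by omega), hx]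
    · rintro (_ | i) hi (_ | k) hk
      · exact hconst x
      · exact ⟨a7 k x, b7 k x⟩
      · change ∑ ω, w ω • v i ω - ∑ ω, w' ω • v' i ω = (if 0 < i + 1 then (1 : ℝ) else 0) • (a - b)
        rw [a5 i (by omega), b5 i (by omega), if_pos (Nat.succ_pos i), one_smul]
      · simp only [Nat.add_lt_add_iff_right]
        exact ⟨a6 i (by omega) k (by omega), b6 i (by omega) k (by omega)⟩
    · rintro (_ | k) y
      · exact hconst y
      · exact ⟨a7 k y, b7 k y⟩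

/-- Normalising a cheap martingale. -/
theorem Reach.normalize {Z : Type*} [NormedAddCommGroup Z] [NormedSpace ℝ Z] {ε r : ℝ}
    (hr : 1 ≤ r) {n : ℕ} {x : Z} {c : ℝ} (h : Reach ε r n x c) (hc : c < 2 * ‖x‖ ^ r) :
    ∃ (x' : Z) (c' : ℝ), Reach ε r n x' c' ∧ ‖x'‖ = 1 ∧ c' ≤ 2 := by
  have h1 := h.lower hr
  have h2 : 0 < ‖x‖ ^ r := by linarith
  have h3 : 0 < ‖x‖ := by
    rcases (norm_nonneg x).eq_or_lt with e | e
    · rw [← e, Real.zero_rpow (by linarith)] at h2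
      exact absurd h2 (lt_irrefl _)
    · exact e
  refine ⟨_, _, h.smul ‖x‖⁻¹, by rw [norm_smul, norm_inv, norm_norm, inv_mul_cancel₀ h3.ne'], ?_⟩
  rw [abs_of_pos (inv_pos.2 h3), Real.inv_rpow h3.le, inv_mul_le_iff₀ h2]
  linarith

theorem no_tri {p A a b : ℝ} (hp : 1 < p) (hA : 0 ≤ A) (ha : 0 < a)
    (hc : Cocycle A (fun x : X => ‖x‖ ^ p))
    (H : ∀ n, ∃ (Ω : Type) (_ : Fintype Ω) (w : Ω → ℝ) (C : ℕ → Submodule ℝ ((Ω → X) × ℝ))
      (v : ℕ → Ω → X), (∀ ω, 0 ≤ w ω) ∧ (∀ k < n, ∀ V, (V, (1 : ℝ)) ∈ C k → a ≤ mom p w V) ∧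
      (∀ i ≤ n, mom p w (v i) ≤ b) ∧
      ∀ i ≤ n, ∀ k < n, (v i, if k < i then (1 : ℝ) else 0) ∈ C k) : False := by
  refine levels_false (a := a) (b := b) hp hA ha fun n => ?_
  obtain ⟨Ω, _, w, C, v, h1, h2, h3, h4⟩ := H n
  exact TriSys.level (ρ := mom p w) (C := C) (v := v) (by linarith) hA
    ⟨mom_nonneg p h1, mom_conv hp.le h1, mom_smul p w, mom_cocycle hc h1, h2, h3, h4⟩

theorem HasMarkovType.exists_uc {p : ℝ} (hp : 1 < p) (h : HasMarkovType X p) :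
    ∃ N : Seminorm ℝ X, (∀ x, ‖x‖ ≤ N x ∧ N x ≤ 3 * ‖x‖) ∧ IsUniformlyConvex N := by
  obtain ⟨A, hA, hc⟩ := h.cocycle (by linarith)
  refine exists_uc_norm hp.le fun ε hε => ?_
  by_contra hcon
  push Not at hcon
  refine no_tri (a := ε ^ p) (b := 2) hp hA (by positivity) hc fun n => ?_
  obtain ⟨x, c, h1, h2⟩ := hcon n
  obtain ⟨x', c', h3, h4, h5⟩ := h1.normalize hp.le h2
  obtain ⟨Ω, _, w, C, v, a1, _, a3, a4, _, a6, _⟩ := h3.prim hε.le hp.le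
  refine ⟨Ω, inferInstance, w, C, v, a1, fun k hk V hV => ?_, fun i hi => (a4 i hi).trans h5, a6⟩
  simpa [h4] using a3 k hk V hV

end Vale.Agent.P125
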