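import Vale.Agent.P125.Prim

open Filter Topology Finset

namespace Vale.Agent.P125

variable {X : Type*} [NormedAddCommGroup X] [NormedSpace ℝ X]

/-- The dual triangular structure carried by a martingale of functionals. -/
def Dua (ε p q : ℝ) (j : ℕ) (x : X →L[ℝ] ℝ) (c : ℝ) : Prop :=
  ∃ (Ω : Type) (_ : Fintype Ω) (w : Ω → ℝ) (M : ℕ → Ω → X →L[ℝ] ℝ) (V : ℕ → Ω → X) (A : ℕ → ℝ),
    (∀ ω, 0 ≤ w ω) ∧ ∑ ω, w ω = 1 ∧
    (∀ i ≤ j, mom q w (M i) ≤ c) ∧ (∀ i ≤ j, ∑ ω, w ω • M i ω = x) ∧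
    (∀ k < j, ∑ ω, w ω • V k ω = 0) ∧ (∀ k < j, ε ^ q * ‖x‖ ^ q ≤ 2 * A k) ∧
    (∀ k < j, mom p w (V k) ≤ 2 * A k) ∧
    ∀ i ≤ j, ∀ k < j, ∑ ω, w ω * M i ω (V k ω) = if k < i then A k else 0

theorem exists_norming {p q : ℝ} (hpq : p.HolderConjugate q) (f : X →L[ℝ] ℝ) :
    ∃ z : X, ‖f‖ ^ q ≤ 2 * f z ∧ ‖z‖ ^ p ≤ ‖f‖ ^ q := by
  rcases (norm_nonneg f).eq_or_lt with e | e
  · refine ⟨0, ?_, ?_⟩
    · rw [← e, Real.zero_rpow hpq.symm.ne_zero]; simp
    · rw [norm_zero, Real.zero_rpow hpq.ne_zero]; positivity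
  obtain ⟨z, h1, h2⟩ := f.exists_lt_apply_of_lt_opNorm (half_lt_self e)
  obtain ⟨z', h3, h4⟩ : ∃ z' : X, ‖z'‖ ≤ 1 ∧ ‖f‖ / 2 ≤ f z' := by
    rcases le_total 0 (f z) with h | h
    · exact ⟨z, h1.le, by rw [Real.norm_of_nonneg h] at h2; exact h2.le⟩
    · exact ⟨-z, by rw [norm_neg]; exact h1.le,
        by rw [Real.norm_of_nonpos h] at h2; rw [map_neg]; exact h2.le⟩
  have h5 : 0 < ‖f‖ ^ (q - 1) := Real.rpow_pos_of_pos e _
  refine ⟨‖f‖ ^ (q - 1) • z', ?_, ?_⟩
  · have : ‖f‖ ^ q = ‖f‖ ^ (q - 1) * ‖f‖ := by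
      rw [Real.rpow_sub_one e.ne']; field_simp
    rw [this, map_smul, smul_eq_mul]
    nlinarith
  · rw [norm_rpow_smul, abs_of_pos h5, ← Real.rpow_mul e.le, hpq.symm.sub_one_mul_conj]
    exact mul_le_of_le_one_right (by positivity)
      (Real.rpow_le_one (norm_nonneg _) h3 hpq.nonneg)

theorem Reach.dua {ε p q : ℝ} (hε : 0 ≤ ε) (hpq : p.HolderConjugate q) {j : ℕ} {x : X →L[ℝ] ℝ}
    {c : ℝ} (h : Reach ε q j x c) : Dua ε p q j x c := by
  have hq : 1 ≤ q := hpq.symm.lt.le
  induction h with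
  | leaf x =>
    refine ⟨Unit, inferInstance, fun _ => 1, fun _ _ => x, fun _ _ => 0, fun _ => 0,
      fun _ => zero_le_one, by simp, by simp [mom], by simp, by simp, by simp, by simp, by simp⟩
  | mix j a b ca cb s t hs ht hst _ _ iha ihb =>
    obtain ⟨Ω, _, w, M, V, A, a1, a2, a3, a4, a5, a6, a7, a8⟩ := iha
    obtain ⟨Ω', _, w', M', V', A', b1, b2, b3, b4, b5, b6, b7, b8⟩ := ihb
    refine ⟨Ω ⊕ Ω', inferInstance, mixW s t w w', fun i => Sum.elim (M i) (M' i),
      fun k => Sum.elim (V k) (V' k), fun k => s * A k + t * A' k,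
      mixW_nonneg hs ht a1 b1, mixW_one hst a2 b2, ?_, ?_, ?_, ?_, ?_, ?_⟩
    · intro i hi
      rw [mom_mix]
      exact add_le_add (mul_le_mul_of_nonneg_left (a3 i hi) hs)
        (mul_le_mul_of_nonneg_left (b3 i hi) ht)
    · intro i hi
      rw [mixW_sum_smul]
      simp only [Sum.elim_inl, Sum.elim_inr, a4 i hi, b4 i hi]
    · intro k hk
      rw [mixW_sum_smul]
      simp only [Sum.elim_inl, Sum.elim_inr, a5 k hk, b5 k hk, smul_zero, add_zero]
    · intro k hk
      have h1 := mul_le_mul_of_nonneg_left (a6 k hk) hs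
      have h2 := mul_le_mul_of_nonneg_left (b6 k hk) ht
      have h3 := (convexOn_norm_rpow hq).2 (Set.mem_univ a) (Set.mem_univ b) hs ht hst
      have h4 := mul_le_mul_of_nonneg_left h3 (show 0 ≤ ε ^ q by positivity)
      simp only [smul_eq_mul] at h4
      linarith
    · intro k hk
      rw [mom_mix]
      have h1 := mul_le_mul_of_nonneg_left (a7 k hk) hs
      have h2 := mul_le_mul_of_nonneg_left (b7 k hk) ht
      simp only [Sum.elim_inl, Sum.elim_inr]
      linarith
    · intro i hi k hk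
      rw [mixW_sum]
      simp only [Sum.elim_inl, Sum.elim_inr, a8 i hi k hk, b8 i hi k hk]
      split_ifs <;> simp
  | big j a b ca cb h ha hb iha ihb =>
    obtain ⟨Ω, _, w, M, V, A, a1, a2, a3, a4, a5, a6, a7, a8⟩ := iha
    obtain ⟨Ω', _, w', M', V', A', b1, b2, b3, b4, b5, b6, b7, b8⟩ := ihb
    have hlow := (Reach.big j a b ca cb h ha hb).lower hq
    set x := (1 / 2 : ℝ) • a + (1 / 2 : ℝ) • b with hx
    have hh : (0 : ℝ) ≤ 1 / 2 := by norm_num
    have hw1 := mixW_one (show (1 / 2 : ℝ) + 1 / 2 = 1 by norm_num) a2 b2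
    obtain ⟨z, hz1, hz2⟩ := exists_norming hpq ((1 / 2 : ℝ) • (a - b))
    have hmean : ∀ k < j + 1, ∑ ω, mixW (1 / 2) (1 / 2) w w' ω •
        (Nat.casesOn k (Sum.elim (fun _ => z) (fun _ => -z))
          (fun k => Sum.elim (V k) (V' k)) : Ω ⊕ Ω' → X) ω = 0 := by
      rintro (_ | k) hk
      · rw [mixW_sum_smul]
        simp only [Nat.rec_zero, Sum.elim_inl, Sum.elim_inr, ← Finset.sum_smul, a2, b2, one_smul]
        rw [smul_neg, add_neg_cancel]
      · rw [mixW_sum_smul]
        simp only [Sum.elim_inl, Sum.elim_inr, a5 k (by omega), b5 k (by omega), smul_zero,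
          add_zero]
    refine ⟨Ω ⊕ Ω', inferInstance, mixW (1 / 2) (1 / 2) w w',
      fun i => Nat.casesOn i (fun _ => x) (fun i => Sum.elim (M i) (M' i)),
      fun k => Nat.casesOn k (Sum.elim (fun _ => z) (fun _ => -z))
        (fun k => Sum.elim (V k) (V' k)),
      fun k => Nat.casesOn k (((1 / 2 : ℝ) • (a - b)) z) (fun k => 1 / 2 * A k + 1 / 2 * A' k),
      mixW_nonneg hh hh a1 b1, hw1, ?_, ?_, hmean, ?_, ?_, ?_⟩
    · rintro (_ | i) hi
      · simp only [mom, Nat.rec_zero, ← Finset.sum_mul, hw1, one_mul]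
        exact hlow
      · rw [mom_mix]
        exact add_le_add (mul_le_mul_of_nonneg_left (a3 i (by omega)) hh)
          (mul_le_mul_of_nonneg_left (b3 i (by omega)) hh)
    · rintro (_ | i) hi
      · simp only [Nat.rec_zero, ← Finset.sum_smul, hw1, one_smul]
      · rw [mixW_sum_smul]
        simp only [Sum.elim_inl, Sum.elim_inr, a4 i (by omega), b4 i (by omega), hx]
    · rintro (_ | k) hk
      · refine le_trans ?_ hz1
        rw [← Real.mul_rpow hε (norm_nonneg x)]
        refine Real.rpow_le_rpow (by positivity) ?_ (by linarith)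
        rw [norm_smul, Real.norm_of_nonneg hh]
        linarith
      · have h1 := a6 k (by omega)
        have h2 := b6 k (by omega)
        have h3 := (convexOn_norm_rpow hq).2 (Set.mem_univ a) (Set.mem_univ b) hh hh (by norm_num)
        have h4 := mul_le_mul_of_nonneg_left h3 (show 0 ≤ ε ^ q by positivity)
        simp only [smul_eq_mul, ← hx] at h4
        simp only
        linarith
    · rintro (_ | k) hk
      · rw [mom_mix]
        simp only [mom, Nat.rec_zero, Sum.elim_inl, Sum.elim_inr, norm_neg, ← Finset.sum_mul, a2,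
          b2, one_mul]
        linarith
      · rw [mom_mix]
        have h1 := a7 k (by omega)
        have h2 := b7 k (by omega)
        simp only [Sum.elim_inl, Sum.elim_inr]
        linarith
    · rintro (_ | i) hi k hk
      · have := congrArg x (hmean k hk)
        rw [map_sum, map_zero] at this
        simp only [map_smul, smul_eq_mul] at this
        rw [if_neg (Nat.not_lt_zero k)]
        exact this
      · rcases k with _ | k
        · rw [mixW_sum, if_pos (Nat.succ_pos i)]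
          have h1 := congrArg (fun f : X →L[ℝ] ℝ => f z) (a4 i (by omega))
          have h2 := congrArg (fun f : X →L[ℝ] ℝ => f z) (b4 i (by omega))
          simp only [_root_.sum_apply, _root_.smul_apply,
            smul_eq_mul] at h1 h2
          simp only [Nat.rec_zero, Sum.elim_inl, Sum.elim_inr, map_neg, mul_neg,
            Finset.sum_neg_distrib, h1, h2, _root_.smul_apply,
            _root_.sub_apply, smul_eq_mul]
          ring
        · rw [mixW_sum]
          simp only [Sum.elim_inl, Sum.elim_inr, a8 i (by omega) k (by omega),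
            b8 i (by omega) k (by omega), Nat.add_lt_add_iff_right]
          split_ifs <;> simp

/-- The graph of an integrated pairing. -/
def pairC {Ω : Type} [Fintype Ω] (w : Ω → ℝ) (M : Ω → X →L[ℝ] ℝ) :
    Submodule ℝ ((Ω → X) × ℝ) where
  carrier := {z | ∑ ω, w ω * M ω (z.1 ω) = z.2}
  add_mem' := fun {x y} hx hy => by
    simp only [Set.mem_ofPred_eq, Prod.fst_add, Pi.add_apply, map_add, mul_add,
      Finset.sum_add_distrib, Prod.snd_add] at hx hy ⊢
    rw [hx, hy]
  zero_mem' := by simp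
  smul_mem' := fun r x hx => by
    simp only [Set.mem_ofPred_eq, Prod.smul_fst, Pi.smul_apply, Prod.smul_snd, smul_eq_mul,
      map_smul] at hx ⊢
    rw [← hx, Finset.mul_sum]
    exact Finset.sum_congr rfl fun ω _ => by ring

theorem HasMarkovType.exists_uc_dual {p : ℝ} (hp : 1 < p) (h : HasMarkovType X p) :
    ∃ N : Seminorm ℝ (X →L[ℝ] ℝ), (∀ x, ‖x‖ ≤ N x ∧ N x ≤ 3 * ‖x‖) ∧ IsUniformlyConvex N := by
  obtain ⟨A, hA, hc⟩ := h.cocycle (by linarith)
  have hpq := Real.HolderConjugate.conjExponent hp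
  set q := Real.conjExponent p with hqdef
  have hq : 1 ≤ q := hpq.symm.lt.le
  refine exists_uc_norm hq fun ε hε => ?_
  by_contra hcon
  push Not at hcon
  refine no_tri (a := (1 / 4) ^ p / 2) (b := 2 * (ε ^ q / 2) ^ (1 - p)) hp hA (by positivity) hc
    fun n => ?_
  obtain ⟨x, c, h1, h2⟩ := hcon n
  obtain ⟨x', c', h3, h4, h5⟩ := h1.normalize hq h2
  obtain ⟨Ω, _, w, M, V, B, a1, _, a3, _, _, a6, a7, a8⟩ := h3.dua hε.le hpq
  have hε' : 0 < ε ^ q / 2 := by positivity
  have hB : ∀ k < n, ε ^ q / 2 ≤ B k := by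
    intro k hk
    have := a6 k hk
    rw [h4, Real.one_rpow] at this
    linarith
  refine ⟨Ω, inferInstance, w, fun k => pairC w (M (n - k)),
    fun i => if i = 0 then 0 else (B (n - i))⁻¹ • V (n - i), a1, fun k hk U hU => ?_,
    fun i hi => ?_, fun i hi k hk => ?_⟩
  · have h0 : ∑ ω, w ω * M (n - k) ω (U ω) = 1 := hU
    have h6 : ∀ ω, M (n - k) ω (U ω) ≤
        4 ^ p * ‖U ω‖ ^ p + 1 / 4 * ‖M (n - k) ω‖ ^ q := by
      intro ω
      have e1 := (le_abs_self _).trans ((M (n - k) ω).le_opNorm (U ω))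
      have e2 := Real.young_inequality_of_nonneg (a := 4 * ‖U ω‖) (b := 1 / 4 * ‖M (n - k) ω‖)
        (by positivity) (by positivity) hpq
      rw [Real.mul_rpow (by norm_num) (norm_nonneg _), Real.mul_rpow (by norm_num) (norm_nonneg _)]
        at e2
      have e3 : 4 ^ p * ‖U ω‖ ^ p / p ≤ 4 ^ p * ‖U ω‖ ^ p := div_le_self (by positivity) hp.le
      have e4 : (1 / 4) ^ q * ‖M (n - k) ω‖ ^ q / q ≤ (1 / 4) ^ q * ‖M (n - k) ω‖ ^ q :=
        div_le_self (by positivity) hq
      have e5 : (1 / 4 : ℝ) ^ q ≤ 1 / 4 := by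
        calc (1 / 4 : ℝ) ^ q ≤ (1 / 4 : ℝ) ^ (1 : ℝ) :=
              Real.rpow_le_rpow_of_exponent_ge (by norm_num) (by norm_num) hq
          _ = 1 / 4 := Real.rpow_one _
      have e6 := mul_le_mul_of_nonneg_right e5 (show 0 ≤ ‖M (n - k) ω‖ ^ q by positivity)
      nlinarith
    have h7 : (1 : ℝ) ≤ 4 ^ p * mom p w U + 1 / 4 * mom q w (M (n - k)) := by
      conv_lhs => rw [← h0]
      simp only [mom, Finset.mul_sum, ← Finset.sum_add_distrib]
      refine Finset.sum_le_sum fun ω _ => ?_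
      have := mul_le_mul_of_nonneg_left (h6 ω) (a1 ω)
      linarith
    have h8 := (a3 (n - k) (Nat.sub_le n k)).trans h5
    have h9 : (1 / 4 : ℝ) ^ p * 4 ^ p = 1 := by
      rw [← Real.mul_rpow (by norm_num) (by norm_num)]; norm_num
    have h10 : (0 : ℝ) < (1 / 4) ^ p := by positivity
    have h11 : (1 / 2 : ℝ) ≤ 4 ^ p * mom p w U := by linarith
    have := mul_le_mul_of_nonneg_left h11 h10.le
    rw [← mul_assoc, h9, one_mul] at this
    linarith
  · by_cases h0 : i = 0
    · simp only [h0, if_true]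
      rw [cost_zero (ρ := (mom p w : (Ω → X) → ℝ)) hpq.pos (mom_smul p w)]
      positivity
    · simp only [if_neg h0]
      have hk : n - i < n := by omega
      have hb := hε'.trans_le (hB _ hk)
      rw [mom_smul, abs_of_pos (inv_pos.2 hb)]
      refine (mul_le_mul_of_nonneg_left (a7 _ hk) (by positivity)).trans ?_
      have e : (B (n - i))⁻¹ ^ p * (2 * B (n - i)) = 2 * B (n - i) ^ (1 - p) := by
        rw [Real.inv_rpow hb.le, Real.rpow_sub hb, Real.rpow_one]
        field_simp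
      rw [e]
      exact mul_le_mul_of_nonneg_left
        (Real.rpow_le_rpow_of_nonpos hε' (hB _ hk) (by linarith)) (by norm_num)
  · by_cases h0 : i = 0
    · simp only [h0, if_true, Nat.not_lt_zero, if_false]
      exact Submodule.zero_mem _
    · simp only [if_neg h0]
      have hk' : n - i < n := by omega
      have hb := hε'.trans_le (hB _ hk')
      change ∑ ω, w ω * M (n - k) ω (((B (n - i))⁻¹ • V (n - i)) ω) = _
      have := a8 (n - k) (Nat.sub_le n k) (n - i) hk'
      have e : ∑ ω, w ω * M (n - k) ω (((B (n - i))⁻¹ • V (n - i)) ω) =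
          (B (n - i))⁻¹ * ∑ ω, w ω * M (n - k) ω (V (n - i) ω) := by
        rw [Finset.mul_sum]
        refine Finset.sum_congr rfl fun ω _ => ?_
        rw [Pi.smul_apply, map_smul, smul_eq_mul]; ring
      rw [e, this]
      by_cases hki : k < i
      · rw [if_pos (by omega), if_pos hki, inv_mul_cancel₀ hb.ne']
      · rw [if_neg (by omega), if_neg hki, mul_zero]

theorem exists_smooth_of_uc_dual (N : Seminorm ℝ (X →L[ℝ] ℝ))
    (hN : ∀ x, ‖x‖ ≤ N x ∧ N x ≤ 3 * ‖x‖) (huc : IsUniformlyConvex N) :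
    ∃ N' : Seminorm ℝ X, IsEquivalentNorm N' ∧ IsUniformlySmooth N' := by
  let Z : X → Set ℝ := fun x => {r | ∃ f : X →L[ℝ] ℝ, N f ≤ 1 ∧ r = f x}
  have hZ0 : ∀ x, (0 : ℝ) ∈ Z x := fun x => ⟨0, by simp, rfl⟩
  have hZb : ∀ x, ∀ r ∈ Z x, r ≤ ‖x‖ := by
    rintro x r ⟨f, hf, rfl⟩
    have e1 := (le_abs_self _).trans (f.le_opNorm x)
    have e2 := mul_le_mul_of_nonneg_right ((hN f).1.trans hf) (norm_nonneg x)
    linarith
  let F : X → ℝ := fun x => sSup (Z x)
  have hle : ∀ x (f : X →L[ℝ] ℝ), N f ≤ 1 → f x ≤ F x := fun x f hf =>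
    le_csSup ⟨_, hZb x⟩ ⟨f, hf, rfl⟩
  have hF0 : ∀ x, 0 ≤ F x := fun x => le_csSup ⟨_, hZb x⟩ (hZ0 x)
  have hFle : ∀ x a, (∀ f : X →L[ℝ] ℝ, N f ≤ 1 → f x ≤ a) → F x ≤ a := fun x a h =>
    csSup_le ⟨_, hZ0 x⟩ (by rintro r ⟨f, hf, rfl⟩; exact h f hf)
  have hpair : ∀ x (f : X →L[ℝ] ℝ), f x ≤ N f * F x := by
    intro x f
    rcases (apply_nonneg N f).eq_or_lt with e | e
    · have : f = 0 := norm_le_zero_iff.1 (e ▸ (hN f).1)
      simp [this]
    · have := hle x ((N f)⁻¹ • f) (by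
        rw [map_smul_eq_mul, norm_inv, Real.norm_of_nonneg e.le, inv_mul_cancel₀ e.ne'])
      rw [_root_.smul_apply, smul_eq_mul, inv_mul_le_iff₀ e] at this
      exact this
  let N' : Seminorm ℝ X := Seminorm.ofSMulLE F
    (le_antisymm (hFle 0 0 fun f _ => by simp) (hF0 0))
    (fun x y => hFle _ _ fun f hf => by
      rw [map_add]; exact add_le_add (hle x f hf) (hle y f hf))
    (fun c x => hFle _ _ fun f hf => by
      have h1 := hpair x (c • f)
      rw [map_smul_eq_mul] at h1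
      have h2 := mul_le_mul_of_nonneg_right (mul_le_mul_of_nonneg_left hf (norm_nonneg c)) (hF0 x)
      rw [map_smul]
      rw [_root_.smul_apply] at h1
      linarith)
  have hN' : ∀ x, N' x = F x := fun x => rfl
  refine ⟨N', ⟨1 / 3, 1, by norm_num, by norm_num, fun x => ⟨?_, ?_⟩⟩, ?_⟩
  · obtain ⟨g, hg1, hg2⟩ := exists_dual_vector'' ℝ x
    have h1 := hpair x g
    have h2 := mul_le_mul_of_nonneg_right ((hN g).2.trans
      (mul_le_mul_of_nonneg_left hg1 (by norm_num))) (hF0 x)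
    rw [hg2] at h1
    rw [hN']
    simp only [RCLike.ofReal_real_eq_id, id_eq] at h1
    linarith
  · rw [one_mul]
    exact hFle _ _ fun f hf => hZb x _ ⟨f, hf, rfl⟩
  · have key : ∀ ε > 0, ∃ δ > 0, ∀ τ, 0 < τ → τ < δ → ∀ x y, N' x = 1 → N' y = 1 →
        (N' (x + τ • y) + N' (x - τ • y)) / 2 - 1 ≤ ε * τ := by
      intro ε hε
      obtain ⟨δ, hδ, hδ'⟩ := huc (min ε 2) (lt_min hε two_pos) (min_le_right _ _)
      refine ⟨δ, hδ, fun τ hτ hτδ x y hx hy => ?_⟩
      have h1 : ∀ f g : X →L[ℝ] ℝ, N f ≤ 1 → N g ≤ 1 →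
          f (x + τ • y) + g (x - τ • y) ≤ 2 + 2 * (ε * τ) := by
        intro f g hf hg
        have e1 := hpair x ((1 / 2 : ℝ) • (f + g))
        have e2 := hpair y (f - g)
        rw [← hN', hx, mul_one] at e1
        rw [← hN', hy, mul_one] at e2
        simp only [_root_.smul_apply, _root_.add_apply,
          _root_.sub_apply, smul_eq_mul] at e1 e2
        simp only [map_add, map_sub, map_smul, smul_eq_mul]
        have e3 := mul_le_mul_of_nonneg_left e2 hτ.le
        have e0 := mul_pos hε hτ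
        by_cases hc : min ε 2 ≤ N (f - g)
        · have e4 := hδ' f g hf hg hc
          have e5 : N (f - g) ≤ 2 := by
            have := map_sub_le_add N f g
            linarith
          have e6 := mul_le_mul_of_nonneg_left e5 hτ.le
          linarith
        · push Not at hc
          have e4 : N ((1 / 2 : ℝ) • (f + g)) ≤ 1 := by
            have := map_add_le_add N f g
            rw [map_smul_eq_mul, Real.norm_of_nonneg (by norm_num)]
            linarith
          have e6 := mul_le_mul_of_nonneg_left (hc.le.trans (min_le_left _ _)) hτ.le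
          linarith
      have h2 : F (x + τ • y) ≤ 2 + 2 * (ε * τ) - F (x - τ • y) := by
        refine hFle _ _ fun f hf => ?_
        have : F (x - τ • y) ≤ 2 + 2 * (ε * τ) - f (x + τ • y) :=
          hFle _ _ fun g hg => by linarith [h1 f g hf hg]
        linarith
      rw [hN', hN']
      linarith
    unfold IsUniformlySmooth
    rw [Metric.tendsto_nhdsWithin_nhds]
    intro ε hε
    obtain ⟨δ, hδ, hδ'⟩ := key (ε / 2) (half_pos hε)
    refine ⟨δ, hδ, fun τ hτ hτδ => ?_⟩
    have hτ0 : 0 < τ := hτ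
    rw [Real.dist_eq, sub_zero, abs_of_pos hτ0] at hτδ
    have h1 : 0 ≤ smoothModulus N' τ := by
      refine Real.sSup_nonneg ?_
      rintro r ⟨x, y, hx, hy, rfl⟩
      have e1 := map_add_le_add N' (x + τ • y) (x - τ • y)
      have e2 : x + τ • y + (x - τ • y) = (2 : ℝ) • x := by
        rw [two_smul]; abel
      rw [e2, map_smul_eq_mul, hx, Real.norm_of_nonneg (by norm_num)] at e1
      linarith
    have h2 : smoothModulus N' τ ≤ ε / 2 * τ := by
      refine Real.sSup_le ?_ (by positivity)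
      rintro r ⟨x, y, hx, hy, rfl⟩
      exact hδ' τ hτ0 hτδ x y hx hy
    rw [Real.dist_eq, sub_zero, abs_of_nonneg (div_nonneg h1 hτ0.le), div_lt_iff₀ hτ0]
    nlinarith

theorem main {p : ℝ} (hp : 1 < p) (h : HasMarkovType X p) :
    (∃ N : Seminorm ℝ X, IsEquivalentNorm N ∧ IsUniformlySmooth N) ∧
      ∃ N : Seminorm ℝ X, IsEquivalentNorm N ∧ IsUniformlyConvex N := by
  constructor
  · obtain ⟨N, h1, h2⟩ := h.exists_uc_dual hp
    exact exists_smooth_of_uc_dual N h1 h2
  · obtain ⟨N, h1, h2⟩ := h.exists_uc hp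
    exact ⟨N, ⟨1, 3, one_pos, by norm_num, fun x => by simpa using h1 x⟩, h2⟩

end Vale.Agent.P125
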