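import Vale.Agent.P125.Cost

open Filter Topology Finset

namespace Vale.Agent.P125

section Bd
variable {Y : Type*} [AddCommGroup Y] [Module ℝ Y]

/-- `u` has size at most `α` for the cost `ρ`, on the scale `b`. -/
def Bd (ρ : Y → ℝ) (p b α : ℝ) (u : Y) : Prop := 0 ≤ α ∧ (α = 0 → u = 0) ∧ ρ u ≤ α ^ p * b

variable {ρ : Y → ℝ} {p b : ℝ}

theorem cost_zero (hp : 0 < p) (hh : ∀ (c : ℝ) y, ρ (c • y) = |c| ^ p * ρ y) : ρ 0 = 0 := by
  have := hh 0 0
  rwa [zero_smul, abs_zero, Real.zero_rpow hp.ne', zero_mul] at this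

theorem cost_neg (hh : ∀ (c : ℝ) y, ρ (c • y) = |c| ^ p * ρ y) (y : Y) : ρ (-y) = ρ y := by
  have := hh (-1) y
  simpa using this

theorem Bd.zero (hp : 0 < p) (hh : ∀ (c : ℝ) y, ρ (c • y) = |c| ^ p * ρ y) : Bd ρ p b 0 0 :=
  ⟨le_rfl, fun _ => rfl, by rw [cost_zero hp hh, Real.zero_rpow hp.ne', zero_mul]⟩

theorem Bd.smul (hh : ∀ (c : ℝ) y, ρ (c • y) = |c| ^ p * ρ y) {α : ℝ} {u : Y}
    (h : Bd ρ p b α u) (c : ℝ) : Bd ρ p b (|c| * α) (c • u) := by
  refine ⟨mul_nonneg (abs_nonneg c) h.1, fun h0 => ?_, ?_⟩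
  · rcases mul_eq_zero.1 h0 with h1 | h1
    · rw [abs_eq_zero.1 h1, zero_smul]
    · rw [h.2.1 h1, smul_zero]
  · rw [hh, Real.mul_rpow (abs_nonneg c) h.1, mul_assoc]
    exact mul_le_mul_of_nonneg_left h.2.2 (by positivity)

theorem Bd.add (hc : ConvexOn ℝ Set.univ ρ) (hh : ∀ (c : ℝ) y, ρ (c • y) = |c| ^ p * ρ y)
    {α β : ℝ} {u v : Y} (h1 : Bd ρ p b α u) (h2 : Bd ρ p b β v) : Bd ρ p b (α + β) (u + v) := by
  rcases h1.1.eq_or_lt with e | hα
  · rw [h1.2.1 e.symm, ← e, zero_add, zero_add]; exact h2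
  rcases h2.1.eq_or_lt with e | hβ
  · rw [h2.2.1 e.symm, ← e, add_zero, add_zero]; exact h1
  have hs : 0 < α + β := add_pos hα hβ
  refine ⟨hs.le, fun h => absurd h hs.ne', ?_⟩
  have a1 := (h1.smul hh α⁻¹).2.2
  have a2 := (h2.smul hh β⁻¹).2.2
  rw [abs_of_pos (inv_pos.2 hα), inv_mul_cancel₀ hα.ne', Real.one_rpow, one_mul] at a1
  rw [abs_of_pos (inv_pos.2 hβ), inv_mul_cancel₀ hβ.ne', Real.one_rpow, one_mul] at a2
  have e : u + v = (α + β) • ((α / (α + β)) • (α⁻¹ • u) + (β / (α + β)) • (β⁻¹ • v)) := by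
    simp only [smul_add, smul_smul]
    rw [show (α + β) * (α / (α + β) * α⁻¹) = 1 by field_simp,
      show (α + β) * (β / (α + β) * β⁻¹) = 1 by field_simp, one_smul, one_smul]
  have a3 := hc.2 (Set.mem_univ (α⁻¹ • u)) (Set.mem_univ (β⁻¹ • v))
    (div_nonneg hα.le hs.le) (div_nonneg hβ.le hs.le) (by field_simp)
  rw [e, hh, abs_of_pos hs]
  refine mul_le_mul_of_nonneg_left (a3.trans ?_) (by positivity)
  simp only [smul_eq_mul]
  have b1 := mul_le_mul_of_nonneg_left a1 (div_nonneg hα.le hs.le)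
  have b2 := mul_le_mul_of_nonneg_left a2 (div_nonneg hβ.le hs.le)
  have b3 : α / (α + β) * b + β / (α + β) * b = b := by field_simp
  linarith

theorem Bd.sum (hp : 0 < p) (hc : ConvexOn ℝ Set.univ ρ)
    (hh : ∀ (c : ℝ) y, ρ (c • y) = |c| ^ p * ρ y) {ι : Type*} (s : Finset ι) (α : ι → ℝ)
    (u : ι → Y) (h : ∀ i ∈ s, Bd ρ p b (α i) (u i)) : Bd ρ p b (∑ i ∈ s, α i) (∑ i ∈ s, u i) := by
  classical
  induction s using Finset.induction_on with
  | empty => simpa using Bd.zero hp hh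
  | insert a s ha ih =>
    rw [Finset.sum_insert ha, Finset.sum_insert ha]
    exact (h a (Finset.mem_insert_self a s)).add hc hh
      (ih fun i hi => h i (Finset.mem_insert_of_mem hi))

omit [Module ℝ Y] in
theorem Bd.one {u : Y} (h : ρ u ≤ b) : Bd ρ p b 1 u :=
  ⟨zero_le_one, fun h => absurd h one_ne_zero, by simpa using h⟩

end Bd

/-- A triangular system of length `n` in a space with a cost of cocycle Markov type. -/
structure TriSys (p A a b : ℝ) (n : ℕ) {Y : Type*} [AddCommGroup Y] [Module ℝ Y] (ρ : Y → ℝ)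
    (C : ℕ → Submodule ℝ (Y × ℝ)) (v : ℕ → Y) : Prop where
  nonneg : ∀ y, 0 ≤ ρ y
  conv : ConvexOn ℝ Set.univ ρ
  homog : ∀ (c : ℝ) y, ρ (c • y) = |c| ^ p * ρ y
  cocycle : Cocycle A ρ
  lower : ∀ k < n, ∀ V, (V, (1 : ℝ)) ∈ C k → a ≤ ρ V
  bdd : ∀ i ≤ n, ρ (v i) ≤ b
  tri : ∀ i ≤ n, ∀ k < n, (v i, if k < i then (1 : ℝ) else 0) ∈ C k

/-- The finite-level cost data extracted from a triangular system. -/
structure Level (p A a b : ℝ) (n : ℕ) (N : (m : ℕ) → (Fin m → ℕ) → (Fin m → ℝ) → ℝ) : Prop where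
  nonneg : ∀ m J h, 0 ≤ N m J h
  bdd : ∀ m J h, StrictMono J → (∀ c, J c < n) → N m J h ≤ (∑ c, |h c| * 2) ^ p * b
  homog : ∀ m J (c : ℝ) h, StrictMono J → (∀ c, J c < n) → N m J (c • h) = |c| ^ p * N m J h
  mono : ∀ m k (φ : Fin k → Fin m) J h, StrictMono J → (∀ c, J c < n) →
    N k (J ∘ φ) (h ∘ φ) ≤ N m J h
  lower : ∀ J, (∀ c, J c < n) → a ≤ N 1 J (fun _ => 1)
  upper : ∀ m J s (κ : Fin m → ℕ), StrictMono J → (∀ c, J c < n) → Monotone κ → (∀ c, κ c ≤ s) →
    N m J (fun c => (-1) ^ κ c) ≤ b * (4 * s + 1) ^ p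
  cocycle : ∀ m J, StrictMono J → (∀ c, J c < n) → Cocycle A (N m J)

theorem TriSys.level {p A a b : ℝ} {n : ℕ} {Y : Type*} [AddCommGroup Y] [Module ℝ Y] {ρ : Y → ℝ}
    {C : ℕ → Submodule ℝ (Y × ℝ)} {v : ℕ → Y} (hp : 0 < p) (hA : 0 ≤ A)
    (H : TriSys p A a b n ρ C v) : ∃ N, Level p A a b n N := by
  let M : (m : ℕ) → (Fin m → ℕ) → Submodule ℝ (Y × (Fin m → ℝ)) := fun m J =>
    { carrier := {z | ∀ c, (z.1, z.2 c) ∈ C (J c)}
      add_mem' := fun {x y} hx hy c => (C (J c)).add_mem (hx c) (hy c)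
      zero_mem' := fun c => (C (J c)).zero_mem
      smul_mem' := fun r x hx c => (C (J c)).smul_mem r (hx c) }
  have hM : ∀ m J V h, (V, h) ∈ M m J ↔ ∀ c, (V, h c) ∈ C (J c) := fun _ _ _ _ => Iff.rfl
  let N : (m : ℕ) → (Fin m → ℕ) → (Fin m → ℝ) → ℝ := fun m J h =>
    sInf {r | ∃ V, (V, h) ∈ M m J ∧ r = ρ V}
  have hbb : ∀ m J h, BddBelow {r | ∃ V, (V, h) ∈ M m J ∧ r = ρ V} := fun m J h =>
    ⟨0, by rintro r ⟨V, _, rfl⟩; exact H.nonneg V⟩
  have hle : ∀ m J V h, (V, h) ∈ M m J → N m J h ≤ ρ V := fun m J V h hV =>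
    csInf_le (hbb m J h) ⟨V, hV, rfl⟩
  have hdiff : ∀ i j, i ≤ n → j ≤ n → Bd ρ p b 2 (v i - v j) := by
    intro i j hi hj
    have := (Bd.one (p := p) (H.bdd i hi)).add H.conv H.homog
      ((Bd.one (p := p) (H.bdd j hj)).smul H.homog (-1))
    norm_num at this
    rwa [← sub_eq_add_neg] at this
  have hfeas : ∀ m J (h : Fin m → ℝ), StrictMono J → (∀ c, J c < n) →
      ∃ V, (V, h) ∈ M m J ∧ ρ V ≤ (∑ c, |h c| * 2) ^ p * b := by
    intro m J h hJ hJn
    refine ⟨∑ c, h c • (v (J c + 1) - v (J c)), ?_, (Bd.sum hp H.conv H.homog _ _ _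
      fun c _ => (hdiff _ _ (hJn c) (hJn c).le).smul H.homog (h c)).2.2⟩
    rw [hM]
    intro c'
    have := (C (J c')).sum_mem (t := Finset.univ) fun c _ => (C (J c')).smul_mem (h c)
      ((C (J c')).sub_mem (H.tri (J c + 1) (hJn c) (J c') (hJn c'))
        (H.tri (J c) (hJn c).le (J c') (hJn c')))
    convert this using 1
    refine Prod.ext ?_ ?_
    · simp [Prod.fst_sum]
    · simp only [Prod.snd_sum, Prod.smul_snd, Prod.snd_sub, smul_eq_mul]
      rw [Finset.sum_eq_single c']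
      · simp
      · intro c _ hc
        rcases lt_or_gt_of_ne hc with e | e
        · have := hJ e
          rw [if_neg (by omega), if_neg (by omega)]; simp
        · have := hJ e
          rw [if_pos (by omega), if_pos (by omega)]; simp
      · simp
  have happ : ∀ m J, StrictMono J → (∀ c, J c < n) → ∀ h, ∀ η > 0,
      ∃ V, (V, h) ∈ M m J ∧ ρ V ≤ N m J h + η := by
    intro m J hJ hJn h η hη
    obtain ⟨V, hV, _⟩ := hfeas m J h hJ hJn
    obtain ⟨r, ⟨V', hV', rfl⟩, hr⟩ := exists_lt_of_csInf_lt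
      (s := {r | ∃ V, (V, h) ∈ M m J ∧ r = ρ V}) ⟨_, V, hV, rfl⟩ (lt_add_of_pos_right _ hη)
    exact ⟨V', hV', hr.le⟩
  have hnn : ∀ m J h, 0 ≤ N m J h := fun m J h =>
    Real.sInf_nonneg (by rintro r ⟨V, _, rfl⟩; exact H.nonneg V)
  have hhom : ∀ m J (c : ℝ) h, StrictMono J → (∀ c, J c < n) →
      N m J (c • h) ≤ |c| ^ p * N m J h := by
    intro m J c h hJ hJn
    refine le_of_forall_pos_le_add fun ε hε => ?_
    have hc : 0 ≤ |c| ^ p := by positivity
    obtain ⟨V, hV, hV'⟩ := happ m J hJ hJn h (ε / (|c| ^ p + 1)) (by positivity)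
    have h1 := hle m J (c • V) (c • h) ((M m J).smul_mem c hV)
    rw [H.homog] at h1
    have h2 := mul_le_mul_of_nonneg_left hV' hc
    have h3 : |c| ^ p * (ε / (|c| ^ p + 1)) ≤ ε := by
      rw [mul_div_assoc', div_le_iff₀ (by positivity)]; nlinarith
    linarith
  refine ⟨N, hnn, ?_, ?_, ?_, ?_, ?_, ?_⟩
  · intro m J h hJ hJn
    obtain ⟨V, hV, hV'⟩ := hfeas m J h hJ hJn
    exact (hle m J V h hV).trans hV'
  · intro m J c h hJ hJn
    refine le_antisymm (hhom m J c h hJ hJn) ?_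
    by_cases hc : c = 0
    · rw [hc, abs_zero, Real.zero_rpow hp.ne', zero_mul]; exact hnn _ _ _
    have h1 := hhom m J c⁻¹ (c • h) hJ hJn
    rw [smul_smul, inv_mul_cancel₀ hc, one_smul] at h1
    have h2 := mul_le_mul_of_nonneg_left h1 (show 0 ≤ |c| ^ p by positivity)
    rwa [← mul_assoc, ← Real.mul_rpow (abs_nonneg _) (abs_nonneg _), ← abs_mul,
      mul_inv_cancel₀ hc, abs_one, Real.one_rpow, one_mul] at h2
  · intro m k φ J h hJ hJn
    refine le_of_forall_pos_le_add fun ε hε => ?_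
    obtain ⟨V, hV, hV'⟩ := happ m J hJ hJn h ε hε
    exact (hle k (J ∘ φ) V (h ∘ φ) (fun c => hV (φ c))).trans hV'
  · intro J hJn
    refine le_of_forall_pos_le_add fun ε hε => ?_
    obtain ⟨V, hV, hV'⟩ := happ 1 J (fun a b hab => absurd hab (by simp [Subsingleton.elim a b]))
      hJn (fun _ => 1) ε hε
    exact (H.lower (J 0) (hJn 0) V (hV 0)).trans hV'
  · intro m J s κ hJ hJn hκ hκs
    have key : ∀ (s : ℕ) (κ : Fin m → ℕ), Monotone κ → (∀ c, κ c ≤ s) →
        ∃ V, (V, fun c => (-1 : ℝ) ^ κ c) ∈ M m J ∧ Bd ρ p b (4 * s + 1) V := by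
      intro s
      induction s with
      | zero =>
        intro κ _ hκs
        refine ⟨v n, fun c => ?_, by simpa using Bd.one (H.bdd n le_rfl)⟩
        have := H.tri n le_rfl (J c) (hJn c)
        rw [if_pos (hJn c)] at this
        simpa [Nat.le_zero.1 (hκs c)] using this
      | succ s ih =>
        intro κ hκ hκs
        obtain ⟨V, hV, hV'⟩ := ih (fun c => min (κ c) s) (fun c c' h => min_le_min_right _ (hκ h))
          (fun c => min_le_right _ _)
        let i := (Finset.univ.filter fun c => κ c ≤ s).sup (fun c => J c + 1)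
        have hi : i ≤ n := Finset.sup_le fun c _ => hJn c
        have hi' : ∀ c, J c < i ↔ κ c ≤ s := by
          intro c
          constructor
          · intro h
            obtain ⟨c', h1, h2⟩ := Finset.lt_sup_iff.1 h
            have h3 : c ≤ c' := hJ.le_iff_le.1 (by omega)
            exact (hκ h3).trans (Finset.mem_filter.1 h1).2
          · intro h
            exact Finset.le_sup (f := fun c => J c + 1)
              (Finset.mem_filter.2 ⟨Finset.mem_univ c, h⟩)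
        refine ⟨V + (2 * (-1 : ℝ) ^ (s + 1)) • (v n - v i), fun c => ?_, ?_⟩
        · have := (C (J c)).add_mem (hV c) ((C (J c)).smul_mem (2 * (-1 : ℝ) ^ (s + 1))
            ((C (J c)).sub_mem (H.tri n le_rfl (J c) (hJn c)) (H.tri i hi (J c) (hJn c))))
          convert this using 1
          refine Prod.ext rfl ?_
          simp only [Prod.snd_add, Prod.smul_snd, Prod.snd_sub, smul_eq_mul, if_pos (hJn c), hi']
          by_cases h : κ c ≤ s
          · rw [if_pos h, min_eq_left h]; ring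
          · have e : κ c = s + 1 := le_antisymm (hκs c) (by omega)
            rw [if_neg h, e, min_eq_right (Nat.le_succ s)]; ring
        · have := hV'.add H.conv H.homog ((hdiff n i le_rfl hi).smul H.homog
            (2 * (-1 : ℝ) ^ (s + 1)))
          convert this using 1
          simp [abs_mul, abs_pow]
          ring
    obtain ⟨V, hV, hV'⟩ := key s κ hκ hκs
    rw [mul_comm]
    exact (hle m J V _ hV).trans hV'.2.2
  · intro m J hJ hJn
    exact H.cocycle.quot hA H.conv (cost_neg H.homog) (M m J) (N m J) (hle m J) (happ m J hJ hJn)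

theorem levels_false {p A a b : ℝ} (hp : 1 < p) (hA : 0 ≤ A) (ha : 0 < a)
    (H : ∀ n, ∃ N, Level p A a b n N) : False := by
  choose N hN using H
  have hlim : ∀ m (h : Fin m → ℝ), ∃ l,
      Tendsto (fun z : (Fin m → ℕ) × ℕ => N z.2 m z.1 h) (UF m) (𝓝 l) := by
    intro m h
    refine exists_ultralim (UF m) _ ((∑ c, |h c| * 2) ^ p * b) ?_
    filter_upwards [UF_mono m] with z hz
    rw [abs_of_nonneg ((hN _).nonneg _ _ _)]
    exact (hN _).bdd m z.1 h hz.1 hz.2
  choose ν hν using hlim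
  refine CostSys.false (ν := ν) (b := b) hp hA ha ⟨?_, ?_, ?_, ?_, ?_, ?_⟩
  · intro m h
    exact ge_of_tendsto' (hν m h) fun z => (hN _).nonneg _ _ _
  · intro m c h
    refine tendsto_nhds_unique (hν m (c • h)) (((hν m h).const_mul (|c| ^ p)).congr' ?_)
    filter_upwards [UF_mono m] with z hz
    exact ((hN _).homog m z.1 c h hz.1 hz.2).symm
  · intro m k φ hφ h
    have h1 := (hν k (h ∘ φ)).comp (UF_spread hφ)
    refine le_of_tendsto_of_tendsto h1 (hν m h) ?_
    filter_upwards [UF_mono m] with z hz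
    exact (hN _).mono m k φ z.1 h hz.1 hz.2
  · refine ge_of_tendsto (hν 1 _) ?_
    filter_upwards [UF_mono 1] with z hz
    exact (hN _).lower z.1 hz.2
  · intro m s κ h1 h2
    refine le_of_tendsto (hν m _) ?_
    filter_upwards [UF_mono m] with z hz
    exact (hN _).upper m z.1 s κ hz.1 hz.2 h1 h2
  · intro m
    refine Cocycle.of_tendsto (UF m).toFilter (fun z => N z.2 m z.1) _ (hν m) ?_
    filter_upwards [UF_mono m] with z hz
    exact (hN _).cocycle m z.1 hz.1 hz.2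

end Vale.Agent.P125
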